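import Vale.Agent.P290.H342.Pencil

/-! P290 / H416, package F2-ISO: a K3 surface with a nonzero isotropic class of type `(1,1)` has a
base point free pencil of square zero. Abstract part, on helper342's `DivTh` (the lattice `T.H` is
the group of classes of holomorphic line bundles, `deg` the degree with respect to a Gauduchon
metric). -/

open Set Filter Topology
open scoped Manifold ContDiff

namespace Vale.Agent.P290.H416

open Vale.Agent.P267.H757 Vale.Agent.P290.H342

universe u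

variable {E : Type*} [NormedAddCommGroup E] [NormedSpace ℂ E]
variable {M : Type u} [TopologicalSpace M] [ChartedSpace E M] (T : DivTh E M)

/-- the class of an effective divisor -/
def Eff (x : T.H) : Prop := ∃ D : T.κ →₀ ℕ, T.toCurves.cls D = x

variable {T}

theorem eff_of_nf {N : M → ℝ} (h : IsNormFn E N) : Eff T (T.cl N) := ⟨T.dv N, T.cl_dv h⟩

theorem deg_cls (deg : T.H →+ ℝ) (D : T.κ →₀ ℕ) :
    deg (T.toCurves.cls D) = ∑ C ∈ D.support, (D C : ℝ) * deg (T.cl (T.N C)) := by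
  rw [T.toCurves.cls_eq_sum D (Finset.Subset.refl _), map_sum]
  refine Finset.sum_congr rfl fun C _ => ?_
  rw [map_nsmul, nsmul_eq_mul]
  rfl

theorem deg_nonneg {deg : T.H →+ ℝ} (hpos : ∀ C, 0 < deg (T.cl (T.N C))) (D : T.κ →₀ ℕ) :
    0 ≤ deg (T.toCurves.cls D) := by
  rw [deg_cls]
  exact Finset.sum_nonneg fun C _ => mul_nonneg (by positivity) (hpos C).le

theorem deg_pos {deg : T.H →+ ℝ} (hpos : ∀ C, 0 < deg (T.cl (T.N C))) {D : T.κ →₀ ℕ}
    (hD : D ≠ 0) : 0 < deg (T.toCurves.cls D) := by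
  rw [deg_cls]
  refine Finset.sum_pos (fun C hC => mul_pos ?_ (hpos C)) (Finsupp.support_nonempty_iff.2 hD)
  exact_mod_cast Nat.pos_of_ne_zero (Finsupp.mem_support_iff.1 hC)

/-- an effective divisor of class zero is zero -/
theorem eq_zero_of_cls (hz : ∀ N, IsNormFn E N → T.cl N = 0 → ∀ x, N x ≠ 0) {D : T.κ →₀ ℕ}
    (h : T.toCurves.cls D = 0) : D = 0 := by
  by_contra hD
  obtain ⟨C, hC⟩ := Finsupp.support_nonempty_iff.2 hD
  obtain ⟨x, hx⟩ := T.zero C
  have h1 : T.cl (T.Nd D) = 0 := by rw [← T.cls_eq]; exact h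
  exact hz _ (T.nf_Nd D) h1 x ((T.Nd_eq_zero_iff D x).2 ⟨C, hC, hx⟩)

/-- the light cone argument: `M² > 0`, `M.x > 0`, `x` and `x'` isotropic with `x.x' > 0` imply
`M.x' > 0`. -/
theorem cone_pos (B : T.H →+ T.H →+ ℤ) (hs : ∀ x y, B x y = B y x)
    (hHI : ∀ M y, 0 < B M M → B M y = 0 → B y y ≤ 0 ∧ (B y y = 0 → y = 0))
    {m x x' : T.H} (hm : 0 < B m m) (hmx : 0 < B m x) (hx : B x x = 0) (hx' : B x' x' = 0)
    (hxx : 0 < B x x') : 0 < B m x' := by
  by_contra hcon
  rw [not_lt] at hcon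
  rcases hcon.lt_or_eq with h1 | h1
  · -- `y = (M.x) x' - (M.x') x`
    set y : T.H := B m x • x' - B m x' • x with hy
    have e1 : B m y = 0 := by
      rw [hy, map_sub, map_zsmul, map_zsmul, smul_eq_mul, smul_eq_mul]
      ring
    have e2 : B y y = -2 * (B m x * B m x') * B x x' := by
      rw [hy]
      simp only [map_sub, map_zsmul, AddMonoidHom.sub_apply, AddMonoidHom.zsmul_apply, smul_eq_mul]
      rw [hx, hx', hs x' x]
      ring
    have h2 := (hHI m y hm e1).1
    rw [e2] at h2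
    have h3 : B m x * B m x' < 0 := mul_neg_of_pos_of_neg hmx h1
    nlinarith [mul_pos_of_neg_of_neg h3 (neg_lt_zero.2 hxx)]
  · have h2 := (hHI m x' hm h1).2 hx'
    rw [h2, map_zero] at hxx
    exact lt_irrefl _ hxx

/-- **An isotropic class of type `(1,1)` gives a base point free pencil.** -/
theorem exists_bpf (hz : ∀ N, IsNormFn E N → T.cl N = 0 → ∀ x, N x ≠ 0)
    (self : ∀ C, -2 ≤ T.B (T.cl (T.N C)) (T.cl (T.N C)))
    (even : ∀ C, Even (T.B (T.cl (T.N C)) (T.cl (T.N C))))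
    (rr : ∀ v, 0 ≤ T.B v v → (∀ N, IsNormFn E N → T.cl N ≠ -v) →
      ∃ P : Pen T v, T.dv (P.N 1 0) ≠ T.dv (P.N 0 1))
    (deg : T.H →+ ℝ) (hpos : ∀ C, 0 < deg (T.cl (T.N C)))
    (hfin : ∀ d : ℝ, {x : T.H | T.B x x = 0 ∧ |deg x| ≤ d}.Finite)
    (hHI : ∀ m y, 0 < T.B m m → T.B m y = 0 → T.B y y ≤ 0 ∧ (T.B y y = 0 → y = 0))
    {x0 : T.H} (hx0 : x0 ≠ 0) (h00 : T.B x0 x0 = 0) :
    ∃ (e : T.H) (P : Pen T e), e ≠ 0 ∧ T.B e e = 0 ∧ P.Bpf := by
  classical
  have cadd : ∀ D D' : T.κ →₀ ℕ, T.toCurves.cls (D + D') = T.toCurves.cls D + T.toCurves.cls D' :=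
    fun D D' => T.toCurves.cls_add D D'
  have czero : T.toCurves.cls (0 : T.κ →₀ ℕ) = 0 := T.toCurves.cls_zero
  have n10 : ∀ {v : T.H} (P : Pen T v), IsNormFn E (P.N 1 0) := fun P => P.nf 1 0 (Or.inl one_ne_zero)
  have n01 : ∀ {v : T.H} (P : Pen T v), IsNormFn E (P.N 0 1) := fun P => P.nf 0 1 (Or.inr one_ne_zero)
  have cl10 : ∀ {v : T.H} (P : Pen T v), T.toCurves.cls (T.dv (P.N 1 0)) = v := fun P => by
    rw [T.cl_dv (n10 P), P.cl 1 0 (Or.inl one_ne_zero)]
  have cl01 : ∀ {v : T.H} (P : Pen T v), T.toCurves.cls (T.dv (P.N 0 1)) = v := fun P => by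
    rw [T.cl_dv (n01 P), P.cl 0 1 (Or.inr one_ne_zero)]
  -- classes with square zero: `x` or `-x` is effective
  have rr' : ∀ v, T.B v v = 0 → Eff T v ∨ Eff T (-v) := by
    intro v hv
    by_cases h : ∀ N, IsNormFn E N → T.cl N ≠ -v
    · obtain ⟨P, -⟩ := rr v hv.ge h
      exact Or.inl ⟨_, cl10 P⟩
    · push Not at h
      obtain ⟨N, hN, h1⟩ := h
      exact Or.inr (h1 ▸ eff_of_nf hN)
  set A : Set T.H := {x | x ≠ 0 ∧ T.B x x = 0 ∧ Eff T x} with hA
  obtain ⟨x1, hx1⟩ : A.Nonempty := by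
    rcases rr' x0 h00 with h | h
    · exact ⟨x0, hx0, h00, h⟩
    · refine ⟨-x0, neg_ne_zero.2 hx0, ?_, h⟩
      rw [map_neg, map_neg, AddMonoidHom.neg_apply, neg_neg, h00]
  -- an element of minimal degree
  have hdegA : ∀ x ∈ A, 0 ≤ deg x := by
    rintro x ⟨-, -, D, rfl⟩
    exact deg_nonneg hpos D
  obtain ⟨x, hxA, hmin⟩ : ∃ x ∈ A, ∀ y ∈ A, deg x ≤ deg y := by
    have hf : (A ∩ {y | deg y ≤ deg x1}).Finite := by
      refine (hfin (deg x1)).subset ?_
      rintro y ⟨hy, hy2⟩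
      exact ⟨hy.2.1, by rw [abs_of_nonneg (hdegA y hy)]; exact hy2⟩
    obtain ⟨x, hx, hm⟩ := Set.exists_min_image _ deg hf ⟨x1, hx1, le_refl (deg x1)⟩
    refine ⟨x, hx.1, fun y hy => ?_⟩
    by_cases h : deg y ≤ deg x1
    · exact hm y ⟨hy, h⟩
    · exact (hx.2 : deg x ≤ deg x1).trans (not_le.1 h).le
  obtain ⟨hxne, hxx, Dx, hDx⟩ := hxA
  -- `-x` is not effective
  have hnot : ∀ N, IsNormFn E N → T.cl N ≠ -x := by
    intro N hN h1
    have h2 : T.toCurves.cls (Dx + T.dv N) = 0 := by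
      rw [cadd, hDx, T.cl_dv hN, h1, add_neg_cancel]
    have h3 := eq_zero_of_cls hz h2
    have h4 : Dx = 0 := by
      ext C
      have := DFunLike.congr_fun h3 C
      rw [Finsupp.add_apply, Finsupp.zero_apply] at this
      rw [Finsupp.zero_apply]
      omega
    rw [h4, czero] at hDx
    exact hxne hDx.symm
  obtain ⟨P, hP⟩ := rr x hxx.ge hnot
  obtain ⟨Zf, D0, D1, e0, e1, hd⟩ : ∃ G D D' : T.κ →₀ ℕ, T.dv (P.N 1 0) = D + G ∧
      T.dv (P.N 0 1) = D' + G ∧ ∀ C, D C = 0 ∨ D' C = 0 :=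
    T.toCurves.exists_gcd (T.dv (P.N 1 0)) (T.dv (P.N 0 1))
  set m := T.toCurves.cls D0 with hm
  have hxm : x = m + T.toCurves.cls Zf := by
    rw [hm, ← cadd, ← e0, cl10 P]
  have hm1 : T.toCurves.cls D0 = T.toCurves.cls D1 := by
    have h1 : m + T.toCurves.cls Zf = T.toCurves.cls D1 + T.toCurves.cls Zf := by
      rw [← hxm, ← cadd, ← e1, cl01 P]
    exact add_right_cancel h1
  have hmC : ∀ C, 0 ≤ T.B m (T.cl (T.N C)) := fun C => T.toCurves.moving_nonneg hd hm1 C
  have hD0 : D0 ≠ 0 := by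
    rintro h
    rw [h, czero] at hm1
    have h1 := eq_zero_of_cls hz hm1.symm
    apply hP
    rw [e0, e1, h, h1]
  have hmne : m ≠ 0 := fun h => hD0 (eq_zero_of_cls hz h)
  have hmm : 0 ≤ T.B m m := T.toCurves.nonneg_of_forall m D0 fun C _ => hmC C
  rcases hmm.eq_or_lt with h0 | h0
  · -- `M² = 0`: no fixed part
    have hmA : m ∈ A := ⟨hmne, h0.symm, D0, rfl⟩
    have h1 := hmin m hmA
    have hZ : Zf = 0 := by
      by_contra hZ
      have h2 := deg_pos hpos hZ
      rw [hxm, map_add] at h1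
      linarith
    rw [hZ, add_zero] at e0 e1
    refine ⟨x, P, hxne, hxx, P.bpf_of_sq hxx fun C hC hC' => ?_⟩
    rw [Finsupp.mem_support_iff, e0] at hC
    rw [Finsupp.mem_support_iff, e1] at hC'
    rcases hd C with h | h
    · exact hC h
    · exact hC' h
  · -- `M² > 0`
    exfalso
    by_cases hneg : ∀ C ∈ Zf.support, 0 ≤ T.B x (T.cl (T.N C))
    · have hxC : ∀ C, 0 ≤ T.B x (T.cl (T.N C)) := by
        intro C
        by_cases hC : C ∈ Zf.support
        · exact hneg C hC
        · rw [hxm, map_add, AddMonoidHom.add_apply]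
          exact add_nonneg (hmC C) (T.toCurves.nonneg_of_notMem Zf C (Finsupp.notMem_support_iff.1 hC))
      have h1 : 0 ≤ T.B x m := T.toCurves.nonneg_of_forall x D0 fun C _ => hxC C
      have h2 : 0 ≤ T.B x (T.toCurves.cls Zf) := T.toCurves.nonneg_of_forall x Zf fun C _ => hxC C
      have h3 : T.B x m + T.B x (T.toCurves.cls Zf) = 0 := by
        rw [← map_add, ← hxm, hxx]
      have h4 : T.B m x = 0 := by rw [T.symm]; linarith
      exact hxne ((hHI m x h0 h4).2 hxx)
    · push Not at hneg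
      obtain ⟨C, hC, hxC⟩ := hneg
      set c := T.cl (T.N C) with hc
      set a := T.B x c with ha
      have hcc : T.B c c = -2 := by
        have h1 : T.B c c < 0 := by
          by_contra hcon
          rw [not_lt] at hcon
          -- `x.C >= 0` for effective `x` if `C² >= 0`
          have h2 : 0 ≤ T.B (T.toCurves.cls Dx) c := by
            rw [T.symm]
            refine T.toCurves.nonneg_of_forall c Dx fun C' _ => ?_
            by_cases h3 : C = C'
            · rw [← h3]; exact hcon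
            · exact T.toCurves.nonneg C C' h3
          rw [hDx] at h2
          exact absurd h2 (not_le.2 hxC)
        have h2 := self C
        obtain ⟨r, hr⟩ := even C
        rw [← hc] at h2 hr
        omega
      set x' := x + a • c with hx'
      have hx'x' : T.B x' x' = 0 := by
        rw [hx']
        simp only [map_add, map_zsmul, AddMonoidHom.add_apply, AddMonoidHom.zsmul_apply,
          smul_eq_mul]
        rw [hxx, T.symm c x, hcc, ← ha]
        ring
      have hxx' : T.B x x' = a * a := by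
        rw [hx', map_add, map_zsmul, hxx, smul_eq_mul, ← ha, zero_add]
      have hxx'pos : 0 < T.B x x' := by rw [hxx']; exact mul_pos_of_neg_of_neg hxC hxC
      have hx'ne : x' ≠ 0 := by
        intro h
        rw [h, map_zero] at hxx'pos
        exact lt_irrefl _ hxx'pos
      have hmx : 0 < T.B m x := by
        have h1 : 0 ≤ T.B m x := by
          rw [← hDx]
          exact T.toCurves.nonneg_of_forall m Dx fun C _ => hmC C
        rcases h1.eq_or_lt with h2 | h2
        · exact absurd ((hHI m x h0 h2.symm).2 hxx) hxne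
        · exact h2
      have hmx' : 0 < T.B m x' := cone_pos T.B T.symm hHI h0 hmx hxx hx'x' hxx'pos
      have heff : Eff T x' := by
        rcases rr' x' hx'x' with h | h
        · exact h
        · exfalso
          obtain ⟨D, hD⟩ := h
          have h1 : 0 ≤ T.B m (T.toCurves.cls D) :=
            T.toCurves.nonneg_of_forall m D fun C _ => hmC C
          rw [hD, map_neg] at h1
          linarith
      have h1 := hmin x' ⟨hx'ne, hx'x', heff⟩
      rw [hx', map_add, map_zsmul, zsmul_eq_mul] at h1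
      have h2 : ((a : ℤ) : ℝ) * deg c < 0 :=
        mul_neg_of_neg_of_pos (by exact_mod_cast hxC) (hpos C)
      linarith

end Vale.Agent.P290.H416
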