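import Vale.Agent.P290.H416.Iso

/-! P290 / H416, package F2-ISO: a nonzero isotropic class of type `(1,1)` gives a base point free
pencil. No metric and no degree: the degree is the integer `m.x` with `m` the moving part of a
pencil. Abstract form on helper342's `DivTh`; the inputs are collected in `IsoIn`. -/

open Set Filter Topology
open scoped Manifold ContDiff

namespace Vale.Agent.P290.H416

open Vale.Agent.P267.H757 Vale.Agent.P290.H342

universe u

variable {E : Type*} [NormedAddCommGroup E] [NormedSpace ℂ E]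
variable {M : Type u} [TopologicalSpace M] [ChartedSpace E M]

/-- The inputs: `S` is the group of classes of type `(1,1)`. -/
structure IsoIn (T : DivTh E M) (S : AddSubgroup T.H) : Prop where
  cl_mem : ∀ N, IsNormFn E N → T.cl N ∈ S
  hz : ∀ N, IsNormFn E N → T.cl N = 0 → ∀ x, N x ≠ 0
  self : ∀ C, -2 ≤ T.B (T.cl (T.N C)) (T.cl (T.N C))
  even : ∀ C, Even (T.B (T.cl (T.N C)) (T.cl (T.N C)))
  rr : ∀ v ∈ S, 0 ≤ T.B v v → (∀ N, IsNormFn E N → T.cl N ≠ -v) →
    ∃ P : Pen T v, T.dv (P.N 1 0) ≠ T.dv (P.N 0 1)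
  hHI : ∀ m ∈ S, ∀ y ∈ S, 0 < T.B m m → T.B m y = 0 → T.B y y ≤ 0 ∧ (T.B y y = 0 → y = 0)
  hLD : ∀ x ∈ S, ∀ y ∈ S, T.B x x = 0 → T.B y y = 0 → T.B x y = 0 →
    ∀ w, T.B x w • y = T.B y w • x
  nondeg : ∀ x, x ≠ 0 → ∃ w, T.B x w ≠ 0
  fin : Module.Finite ℤ T.H

namespace IsoIn

variable {T : DivTh E M} {S : AddSubgroup T.H} (I : IsoIn T S)

include I

theorem zsmul_eq_zero {n : ℤ} {x : T.H} (h : n • x = 0) : n = 0 ∨ x = 0 := by
  by_cases hx : x = 0
  · exact Or.inr hx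
  · obtain ⟨w, hw⟩ := I.nondeg x hx
    have h1 : T.B (n • x) w = 0 := by rw [h, map_zero, AddMonoidHom.zero_apply]
    rw [map_zsmul, AddMonoidHom.zsmul_apply, smul_eq_mul] at h1
    exact Or.inl ((mul_eq_zero.1 h1).resolve_right hw)

theorem mem_of_eff {x : T.H} (h : Eff T x) : x ∈ S := by
  obtain ⟨D, rfl⟩ := h
  rw [T.cls_eq]
  exact I.cl_mem _ (T.nf_Nd D)

omit I in
theorem eff_add {x y : T.H} (hx : Eff T x) (hy : Eff T y) : Eff T (x + y) := by
  obtain ⟨D, rfl⟩ := hx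
  obtain ⟨D', rfl⟩ := hy
  exact ⟨D + D', T.toCurves.cls_add D D'⟩

omit I in
theorem eff_nsmul {x : T.H} (hx : Eff T x) (n : ℕ) : Eff T (n • x) := by
  induction n with
  | zero => exact ⟨0, T.toCurves.cls_zero.trans (zero_nsmul x).symm⟩
  | succ n ih => rw [succ_nsmul]; exact eff_add ih hx

theorem eff_add_eq_zero {x y : T.H} (hx : Eff T x) (hy : Eff T y) (h : x + y = 0) : x = 0 := by
  obtain ⟨D, rfl⟩ := hx
  obtain ⟨D', rfl⟩ := hy
  have h2 : T.toCurves.cls (D + D') = 0 := by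
    rw [← h]; exact T.toCurves.cls_add D D'
  have h3 := eq_zero_of_cls I.hz h2
  have h4 : D = 0 := by
    ext C
    have := DFunLike.congr_fun h3 C
    rw [Finsupp.add_apply, Finsupp.zero_apply] at this
    rw [Finsupp.zero_apply]
    omega
  rw [h4]
  exact T.toCurves.cls_zero

theorem rr' {v : T.H} (hv : v ∈ S) (h0 : T.B v v = 0) : Eff T v ∨ Eff T (-v) := by
  by_cases h : ∀ N, IsNormFn E N → T.cl N ≠ -v
  · obtain ⟨P, -⟩ := I.rr v hv h0.ge h
    have h1 : IsNormFn E (P.N 1 0) := P.nf 1 0 (Or.inl one_ne_zero)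
    exact Or.inl ⟨_, by rw [T.cl_dv h1, P.cl 1 0 (Or.inl one_ne_zero)]⟩
  · push Not at h
    obtain ⟨N, hN, h1⟩ := h
    exact Or.inr (h1 ▸ eff_of_nf hN)

/-- nonzero effective isotropic classes -/
def _root_.Vale.Agent.P290.H416.EIso (T : DivTh E M) (x : T.H) : Prop :=
  x ≠ 0 ∧ T.B x x = 0 ∧ Eff T x

/-- nef classes -/
def _root_.Vale.Agent.P290.H416.Nef (T : DivTh E M) (x : T.H) : Prop :=
  ∀ C, 0 ≤ T.B x (T.cl (T.N C))

omit I in
theorem _root_.Vale.Agent.P290.H416.Nef.eff {x y : T.H} (h : Nef T x) (hy : Eff T y) :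
    0 ≤ T.B x y := by
  obtain ⟨D, rfl⟩ := hy
  exact T.toCurves.nonneg_of_forall x D fun C _ => h C

omit I in
theorem cls_single' (C : T.κ) (n : ℕ) :
    T.toCurves.cls (Finsupp.single C n) = n • T.cl (T.N C) := by
  exact (T.cls_eq _).trans ((T.cl_Nd _).trans (Finsupp.linearCombination_single ℕ n C))

/-- the moving part of a pencil -/
theorem moving {x : T.H} (hx : EIso T x) : ∃ (P : Pen T x) (m : T.H) (Zf D0 D1 : T.κ →₀ ℕ),
    T.dv (P.N 1 0) = D0 + Zf ∧ T.dv (P.N 0 1) = D1 + Zf ∧ (∀ C, D0 C = 0 ∨ D1 C = 0) ∧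
    T.toCurves.cls D0 = m ∧ x = m + T.toCurves.cls Zf ∧ Nef T m ∧ m ≠ 0 := by
  obtain ⟨hxne, hxx, hxe⟩ := hx
  have hnot : ∀ N, IsNormFn E N → T.cl N ≠ -x := by
    intro N hN h1
    exact hxne (I.eff_add_eq_zero hxe (eff_of_nf hN) (by rw [h1, add_neg_cancel]))
  obtain ⟨P, hP⟩ := I.rr x (I.mem_of_eff hxe) hxx.ge hnot
  have n10 : IsNormFn E (P.N 1 0) := P.nf 1 0 (Or.inl one_ne_zero)
  have n01 : IsNormFn E (P.N 0 1) := P.nf 0 1 (Or.inr one_ne_zero)
  have cl10 : T.toCurves.cls (T.dv (P.N 1 0)) = x := by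
    rw [T.cl_dv n10, P.cl 1 0 (Or.inl one_ne_zero)]
  have cl01 : T.toCurves.cls (T.dv (P.N 0 1)) = x := by
    rw [T.cl_dv n01, P.cl 0 1 (Or.inr one_ne_zero)]
  have cadd : ∀ D D' : T.κ →₀ ℕ, T.toCurves.cls (D + D') = T.toCurves.cls D + T.toCurves.cls D' :=
    fun D D' => T.toCurves.cls_add D D'
  have czero : T.toCurves.cls (0 : T.κ →₀ ℕ) = 0 := T.toCurves.cls_zero
  obtain ⟨Zf, D0, D1, e0, e1, hd⟩ : ∃ G D D' : T.κ →₀ ℕ, T.dv (P.N 1 0) = D + G ∧
      T.dv (P.N 0 1) = D' + G ∧ ∀ C, D C = 0 ∨ D' C = 0 :=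
    T.toCurves.exists_gcd (T.dv (P.N 1 0)) (T.dv (P.N 0 1))
  have hxm : x = T.toCurves.cls D0 + T.toCurves.cls Zf := by
    rw [← cadd, ← e0, cl10]
  have hm1 : T.toCurves.cls D0 = T.toCurves.cls D1 := by
    have h1 : T.toCurves.cls D0 + T.toCurves.cls Zf = T.toCurves.cls D1 + T.toCurves.cls Zf := by
      rw [← hxm, ← cadd, ← e1, cl01]
    exact add_right_cancel h1
  refine ⟨P, T.toCurves.cls D0, Zf, D0, D1, e0, e1, hd, rfl, hxm,
    fun C => T.toCurves.moving_nonneg hd hm1 C, ?_⟩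
  intro h
  have h0 := eq_zero_of_cls I.hz h
  have h1 := eq_zero_of_cls I.hz (hm1 ▸ h)
  apply hP
  rw [e0, e1, h0, h1]

/-- **A nef isotropic class gives a base point free pencil.** -/
theorem bpf_of_nef {f : T.H} (hf : EIso T f) (hn : Nef T f) :
    ∃ (e : T.H) (P : Pen T e), e ≠ 0 ∧ T.B e e = 0 ∧ P.Bpf := by
  classical
  obtain ⟨hfne, hff, hfe⟩ := hf
  have hfS := I.mem_of_eff hfe
  obtain ⟨w, hw⟩ : ∃ w, 0 < T.B f w := by
    obtain ⟨w, hw⟩ := I.nondeg f hfne
    rcases lt_or_gt_of_ne hw with h | h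
    · exact ⟨-w, by rw [map_neg]; linarith⟩
    · exact ⟨w, h⟩
  -- effective isotropic classes orthogonal to `f`
  have hpos : ∀ y, y ≠ 0 → T.B y y = 0 → Eff T y → T.B f y = 0 → 0 < T.B y w := by
    intro y hy hyy hye hfy
    have h1 := I.hLD f hfS y (I.mem_of_eff hye) hff hyy hfy w
    by_contra hcon
    rw [not_lt] at hcon
    obtain ⟨a, ha⟩ := Int.eq_ofNat_of_zero_le (neg_nonneg.2 hcon)
    obtain ⟨b, hb⟩ := Int.eq_ofNat_of_zero_le hw.le
    have h2 : T.B f w • y + (-T.B y w) • f = 0 := by rw [h1, neg_zsmul, add_neg_cancel]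
    rw [ha, hb, natCast_zsmul, natCast_zsmul] at h2
    have h3 := I.eff_add_eq_zero (eff_nsmul hye b) (eff_nsmul hfe a) h2
    rw [← natCast_zsmul, ← hb] at h3
    rcases I.zsmul_eq_zero h3 with h4 | h4
    · exact hw.ne' h4
    · exact hy h4
  -- one with minimal `y.w`
  have hex : ∃ n : ℕ, ∃ y, y ≠ 0 ∧ T.B y y = 0 ∧ Eff T y ∧ T.B f y = 0 ∧ T.B y w = n := by
    obtain ⟨b, hb⟩ := Int.eq_ofNat_of_zero_le hw.le
    exact ⟨b, f, hfne, hff, hfe, hff, hb⟩
  obtain ⟨y, hyne, hyy, hye, hfy, hyw⟩ := Nat.find_spec hex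
  have hmin : ∀ z, z ≠ 0 → T.B z z = 0 → Eff T z → T.B f z = 0 → T.B y w ≤ T.B z w := by
    intro z h1 h2 h3 h4
    obtain ⟨b, hb⟩ := Int.eq_ofNat_of_zero_le (hpos z h1 h2 h3 h4).le
    rw [hyw, hb]
    exact_mod_cast Nat.find_min' hex ⟨z, h1, h2, h3, h4, hb⟩
  have hyw0 := hpos y hyne hyy hye hfy
  have hLD := I.hLD f hfS y (I.mem_of_eff hye) hff hyy hfy w
  -- `y` is nef
  have hyn : Nef T y := by
    intro C
    have h1 : T.B f w * T.B y (T.cl (T.N C)) = T.B y w * T.B f (T.cl (T.N C)) := by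
      have h2 := congrArg (fun z => T.B z (T.cl (T.N C))) hLD
      simpa [map_zsmul, AddMonoidHom.zsmul_apply] using h2
    have h3 : 0 ≤ T.B f w * T.B y (T.cl (T.N C)) := by
      rw [h1]; exact mul_nonneg hyw0.le (hn C)
    exact nonneg_of_mul_nonneg_right h3 hw
  obtain ⟨P, m, Zf, D0, D1, e0, e1, hd, hm, hxm, hmn, hmne⟩ := I.moving ⟨hyne, hyy, hye⟩
  have hme : Eff T m := ⟨D0, hm⟩
  have hZe : Eff T (T.toCurves.cls Zf) := ⟨Zf, rfl⟩
  set z := T.toCurves.cls Zf with hz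
  have a1 : 0 ≤ T.B y m := hyn.eff hme
  have a2 : 0 ≤ T.B y z := hyn.eff hZe
  have a3 : T.B y m + T.B y z = 0 := by rw [← map_add, ← hxm, hyy]
  have a4 : T.B y m = 0 := by linarith
  have a5 : T.B y z = 0 := by linarith
  have b1 : 0 ≤ T.B m m := hmn.eff hme
  have b2 : 0 ≤ T.B m z := hmn.eff hZe
  have b3 : T.B m m + T.B m z = 0 := by
    rw [← map_add, ← hxm, T.symm, a4]
  have b4 : T.B m m = 0 := by linarith
  have b5 : T.B m z = 0 := by linarith
  have b6 : T.B z z = 0 := by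
    have : T.B y z = T.B m z + T.B z z := by
      conv_lhs => rw [hxm, map_add, AddMonoidHom.add_apply]
    linarith
  -- orthogonality to `f`
  have hort : ∀ v, T.B y v = 0 → T.B f v = 0 := by
    intro v hv
    have h2 := congrArg (fun z => T.B z v) hLD
    have h1 : T.B f w * T.B y v = T.B y w * T.B f v := by
      simpa [map_zsmul, AddMonoidHom.zsmul_apply] using h2
    rw [hv, mul_zero] at h1
    exact (mul_eq_zero.1 h1.symm).resolve_left hyw0.ne'
  have hZ : Zf = 0 := by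
    by_contra hZ
    have hzne : z ≠ 0 := fun h => hZ (eq_zero_of_cls I.hz h)
    have c1 := hpos z hzne b6 hZe (hort z a5)
    have c2 := hmin m hmne b4 hme (hort m a4)
    have c3 : T.B y w = T.B m w + T.B z w := by
      conv_lhs => rw [hxm, map_add, AddMonoidHom.add_apply]
    linarith
  rw [hZ, add_zero] at e0 e1
  refine ⟨y, P, hyne, hyy, P.bpf_of_sq hyy fun C hC hC' => ?_⟩
  rw [Finsupp.mem_support_iff, e0] at hC
  rw [Finsupp.mem_support_iff, e1] at hC'
  rcases hd C with h | h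
  · exact hC h
  · exact hC' h

/-- Cauchy-Schwarz on `m^⊥` -/
theorem cs {m : T.H} (hm : m ∈ S) (hmm : 0 < T.B m m) {y z : T.H} (hy : y ∈ S) (hz : z ∈ S)
    (hmy : T.B m y = 0) (hmz : T.B m z = 0) :
    T.B y z * T.B y z ≤ T.B y y * T.B z z := by
  rcases eq_or_ne z 0 with rfl | hz0
  · simp
  have hzz : T.B z z < 0 := by
    obtain ⟨h1, h2⟩ := I.hHI m hm z hz hmm hmz
    exact lt_of_le_of_ne h1 fun h => hz0 (h2 h)
  have hv : T.B z z • y - T.B y z • z ∈ S := S.sub_mem (S.zsmul_mem hy _) (S.zsmul_mem hz _)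
  have hmv : T.B m (T.B z z • y - T.B y z • z) = 0 := by
    rw [map_sub, map_zsmul, map_zsmul, hmy, hmz, smul_zero, smul_zero, sub_zero]
  have h1 := (I.hHI m hm _ hv hmm hmv).1
  have e : T.B (T.B z z • y - T.B y z • z) (T.B z z • y - T.B y z • z) =
      T.B z z * (T.B z z * T.B y y - T.B y z * T.B y z) := by
    simp only [map_sub, map_zsmul, AddMonoidHom.sub_apply, AddMonoidHom.zsmul_apply, smul_eq_mul]
    rw [T.symm z y]
    ring
  rw [e] at h1
  have h2 : 0 ≤ T.B z z * T.B y y - T.B y z * T.B y z := by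
    by_contra hcon
    rw [not_le] at hcon
    exact absurd h1 (not_le.2 (mul_pos_of_neg_of_neg hzz hcon))
  linarith

/-- finiteness of the isotropic classes of given degree -/
theorem finite_deg {m : T.H} (hm : m ∈ S) (hmm : 0 < T.B m m) (d : ℤ) :
    {x : T.H | x ∈ S ∧ T.B x x = 0 ∧ T.B m x = d}.Finite := by
  classical
  have := I.fin
  -- generators of `m^⊥ ∩ S`
  set K : Submodule ℤ T.H := AddSubgroup.toIntSubmodule (S ⊓ (T.B m).ker) with hK
  obtain ⟨s, hs⟩ : K.FG := IsNoetherian.noetherian K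
  have hKmem : ∀ y, y ∈ K ↔ y ∈ S ∧ T.B m y = 0 := fun y => Iff.rfl
  have hsK : ∀ g ∈ s, g ∈ K := fun g hg => hs ▸ Submodule.subset_span hg
  -- the projection to `m^⊥`
  set p : T.H → T.H := fun x => T.B m m • x - T.B m x • m with hp
  set c : ℤ := d * d * T.B m m with hc
  -- the coordinates
  set φ : T.H → (s → ℤ) := fun x g => T.B (p x) g with hφ
  refine Set.Finite.of_finite_image (f := φ) ?_ ?_
  · refine Set.Finite.subset (Set.Finite.pi (t := fun g : s =>
      {k : ℤ | k * k ≤ -c * T.B (g : T.H) g}) fun g => ?_) ?_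
    · refine Set.Finite.subset (Set.finite_Icc (-(-c * T.B (g : T.H) g)) (-c * T.B (g : T.H) g)) ?_
      intro k hk
      replace hk : k * k ≤ -c * T.B (g : T.H) g := hk
      constructor
      · nlinarith [mul_self_nonneg (k + 1), mul_self_nonneg k]
      · nlinarith [mul_self_nonneg (k - 1), mul_self_nonneg k]
    · rintro _ ⟨x, ⟨hxS, hxx, hmx⟩, rfl⟩
      refine Set.mem_univ_pi.2 fun g => ?_
      obtain ⟨hgS, hmg⟩ := (hKmem _).1 (hsK g.1 g.2)
      have hpS : p x ∈ S := S.sub_mem (S.zsmul_mem hxS _) (S.zsmul_mem hm _)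
      have hmp : T.B m (p x) = 0 := by
        rw [hp]
        simp only [map_sub, map_zsmul, smul_eq_mul]
        ring
      have h1 := I.cs hm hmm hpS hgS hmp hmg
      have h2 : T.B (p x) (p x) = -c := by
        rw [hp, hc]
        simp only [map_sub, map_zsmul, AddMonoidHom.sub_apply, AddMonoidHom.zsmul_apply,
          smul_eq_mul]
        rw [hxx, T.symm x m, hmx]
        ring
      rw [h2] at h1
      exact h1
  · intro x hx y hy hxy
    obtain ⟨hxS, hxx, hmx⟩ := hx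
    obtain ⟨hyS, hyy, hmy⟩ := hy
    -- `x - y` is orthogonal to `m^⊥ ∩ S`
    have h1 : ∀ k ∈ K, T.B (x - y) k = 0 := by
      intro k hk
      have h2 : ∀ k ∈ Submodule.span ℤ (s : Set T.H), T.B (x - y) k = 0 := by
        intro k hk
        induction hk using Submodule.span_induction with
        | mem g hg =>
          have h3 := congrFun hxy ⟨g, hg⟩
          obtain ⟨hgS, hmg⟩ := (hKmem _).1 (hsK g hg)
          simp only [hφ, hp, map_sub, map_zsmul, AddMonoidHom.sub_apply,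
            AddMonoidHom.zsmul_apply, smul_eq_mul, hmg, mul_zero, sub_zero] at h3
          rw [map_sub, AddMonoidHom.sub_apply, sub_eq_zero]
          exact mul_left_cancel₀ hmm.ne' h3
        | zero => rw [map_zero]
        | add u v _ _ hu hv => rw [map_add, hu, hv, add_zero]
        | smul a u _ hu => rw [map_zsmul, hu, smul_zero]
      exact h2 k (hs ▸ hk)
    have hxyS : x - y ∈ S := S.sub_mem hxS hyS
    have hmxy : T.B m (x - y) = 0 := by rw [map_sub, hmx, hmy, sub_self]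
    have h2 := h1 (x - y) ((hKmem _).2 ⟨hxyS, hmxy⟩)
    exact sub_eq_zero.1 ((I.hHI m hm _ hxyS hmm hmxy).2 h2)

/-- **Existence of a nef isotropic class.** -/
theorem exists_nef {x0 : T.H} (hx0 : x0 ≠ 0) (h00 : T.B x0 x0 = 0) (h0S : x0 ∈ S) :
    ∃ f, EIso T f ∧ Nef T f := by
  classical
  obtain ⟨x1, hx1⟩ : ∃ x, EIso T x := by
    rcases I.rr' h0S h00 with h | h
    · exact ⟨x0, hx0, h00, h⟩
    · refine ⟨-x0, neg_ne_zero.2 hx0, ?_, h⟩
      rw [map_neg, map_neg, AddMonoidHom.neg_apply, neg_neg, h00]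
  obtain ⟨P, m, Zf, D0, D1, e0, e1, hd, hm, hxm, hmn, hmne⟩ := I.moving hx1
  have hme : Eff T m := ⟨D0, hm⟩
  have hmS := I.mem_of_eff hme
  have hmm : 0 ≤ T.B m m := hmn.eff hme
  rcases hmm.eq_or_lt with h0 | h0
  · exact ⟨m, ⟨hmne, h0.symm, hme⟩, hmn⟩
  -- `m² > 0`
  have hdeg : ∀ y, EIso T y → 0 < T.B m y := by
    rintro y ⟨hy, hyy, hye⟩
    rcases (hmn.eff hye).eq_or_lt with h | h
    · exact absurd ((I.hHI m hmS y (I.mem_of_eff hye) h0 h.symm).2 hyy) hy
    · exact h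
  have hex : ∃ n : ℕ, ∃ y, EIso T y ∧ T.B m y = n := by
    obtain ⟨b, hb⟩ := Int.eq_ofNat_of_zero_le (hdeg x1 hx1).le
    exact ⟨b, x1, hx1, hb⟩
  set d : ℤ := (Nat.find hex : ℤ) with hdd
  have hmin : ∀ y, EIso T y → d ≤ T.B m y := by
    intro y hy
    obtain ⟨b, hb⟩ := Int.eq_ofNat_of_zero_le (hdeg y hy).le
    rw [hb, hdd]
    exact_mod_cast Nat.find_min' hex ⟨y, hy, hb⟩
  set A : Set T.H := {y | EIso T y ∧ T.B m y = d} with hA
  have hAfin : A.Finite := (I.finite_deg hmS h0 d).subset fun y hy =>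
    ⟨I.mem_of_eff hy.1.2.2, hy.1.2.1, hy.2⟩
  have hAne : A.Nonempty := by
    obtain ⟨y, hy, hy2⟩ := Nat.find_spec hex
    exact ⟨y, hy, hy2⟩
  -- the partial order
  let r : T.H → T.H → Prop := fun y x => ∃ D : T.κ →₀ ℕ, D ≠ 0 ∧ x = y + T.toCurves.cls D
  have hr : IsStrictOrder T.H r := by
    refine { irrefl := ?_, trans := ?_ }
    · rintro x ⟨D, hD, h⟩
      exact hD (eq_zero_of_cls I.hz (left_eq_add.1 h))
    · rintro x y z ⟨D, hD, rfl⟩ ⟨D', hD', rfl⟩
      refine ⟨D + D', fun h => hD ?_, ?_⟩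
      · ext C
        have := DFunLike.congr_fun h C
        rw [Finsupp.add_apply, Finsupp.zero_apply] at this
        rw [Finsupp.zero_apply]
        omega
      · rw [add_assoc]
        congr 1
        exact (T.toCurves.cls_add D D').symm
  obtain ⟨x, hxA, hxmin⟩ : ∃ x ∈ A, ∀ y ∈ A, ¬ r y x := by
    have h1 := hAfin.wellFoundedOn (r := r)
    rw [Set.wellFoundedOn_iff] at h1
    obtain ⟨x, hx, h2⟩ := h1.has_min A hAne
    exact ⟨x, hx, fun y hy h3 => h2 y hy ⟨h3, hy, hx⟩⟩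
  obtain ⟨⟨hxne, hxx, hxe⟩, hmx⟩ := hxA
  refine ⟨x, ⟨hxne, hxx, hxe⟩, fun C => ?_⟩
  by_contra hxC
  rw [not_le] at hxC
  set c := T.cl (T.N C) with hc
  set a := T.B x c with ha
  have hcc : T.B c c = -2 := by
    have h1 : T.B c c < 0 := by
      by_contra hcon
      rw [not_lt] at hcon
      obtain ⟨Dx, hDx⟩ := hxe
      have h2 : 0 ≤ T.B (T.toCurves.cls Dx) c := by
        rw [T.symm]
        refine T.toCurves.nonneg_of_forall c Dx fun C' _ => ?_
        by_cases h3 : C = C'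
        · rw [← h3]; exact hcon
        · exact T.toCurves.nonneg C C' h3
      rw [hDx] at h2
      exact absurd h2 (not_le.2 hxC)
    have h2 := I.self C
    obtain ⟨r, hr⟩ := I.even C
    rw [← hc] at h2 hr
    omega
  set x' := x + a • c with hx'
  have hx'x' : T.B x' x' = 0 := by
    rw [hx']
    simp only [map_add, map_zsmul, AddMonoidHom.add_apply, AddMonoidHom.zsmul_apply,
      smul_eq_mul]
    rw [hxx, T.symm c x, hcc, ← ha]
    ring
  have hxx' : T.B x x' = a * a := by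
    rw [hx', map_add, map_zsmul, hxx, smul_eq_mul, ← ha, zero_add]
  have hxx'pos : 0 < T.B x x' := by rw [hxx']; exact mul_pos_of_neg_of_neg hxC hxC
  have hx'ne : x' ≠ 0 := by
    intro h
    rw [h, map_zero] at hxx'pos
    exact lt_irrefl _ hxx'pos
  have hcS : c ∈ S := I.cl_mem _ (T.nf C)
  have hxS : x ∈ S := I.mem_of_eff hxe
  have hx'S : x' ∈ S := S.add_mem hxS (S.zsmul_mem hcS a)
  have hmx0 : 0 < T.B m x := hdeg x ⟨hxne, hxx, hxe⟩
  -- the light cone
  have hmx' : 0 < T.B m x' := by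
    by_contra hcon
    rw [not_lt] at hcon
    rcases hcon.lt_or_eq with h1 | h1
    · set y : T.H := T.B m x • x' - T.B m x' • x with hy
      have e1 : T.B m y = 0 := by
        rw [hy, map_sub, map_zsmul, map_zsmul, smul_eq_mul, smul_eq_mul]
        ring
      have e2 : T.B y y = -2 * (T.B m x * T.B m x') * T.B x x' := by
        rw [hy]
        simp only [map_sub, map_zsmul, AddMonoidHom.sub_apply, AddMonoidHom.zsmul_apply,
          smul_eq_mul]
        rw [hxx, hx'x', T.symm x' x]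
        ring
      have hyS : y ∈ S := S.sub_mem (S.zsmul_mem hx'S _) (S.zsmul_mem hxS _)
      have h2 := (I.hHI m hmS y hyS h0 e1).1
      rw [e2] at h2
      have h3 : T.B m x * T.B m x' < 0 := mul_neg_of_pos_of_neg hmx0 h1
      nlinarith [mul_pos_of_neg_of_neg h3 (neg_lt_zero.2 hxx'pos)]
    · exact hx'ne ((I.hHI m hmS x' hx'S h0 h1).2 hx'x')
  have heff : Eff T x' := by
    rcases I.rr' hx'S hx'x' with h | h
    · exact h
    · exfalso
      have h1 := hmn.eff h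
      rw [map_neg] at h1
      linarith
  have h1 := hmin x' ⟨hx'ne, hx'x', heff⟩
  have h2 : T.B m x' = d + a * T.B m c := by
    rw [hx', map_add, map_zsmul, smul_eq_mul, hmx]
  have h3 : a * T.B m c ≤ 0 := mul_nonpos_of_nonpos_of_nonneg hxC.le (hmn C)
  refine hxmin x' ⟨⟨hx'ne, hx'x', heff⟩, by linarith⟩
    ⟨Finsupp.single C (-a).toNat, ?_, ?_⟩
  · intro h
    have h4 := DFunLike.congr_fun h C
    rw [Finsupp.single_eq_same, Finsupp.zero_apply] at h4
    omega
  · have h5 : T.toCurves.cls (Finsupp.single C (-a).toNat) = (-a) • c := by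
      refine (cls_single' C _).trans ?_
      conv_rhs => rw [← Int.toNat_of_nonneg (neg_nonneg.2 hxC.le)]
      exact (natCast_zsmul _ _).symm
    have h6 : x = x' + (-a) • c := by
      rw [hx', neg_zsmul]
      abel
    exact h6.trans (congrArg (x' + ·) h5.symm)

/-- **An isotropic class of type `(1,1)` gives a base point free pencil.** -/
theorem exists_bpf {x0 : T.H} (hx0 : x0 ≠ 0) (h00 : T.B x0 x0 = 0) (h0S : x0 ∈ S) :
    ∃ (e : T.H) (P : Pen T e), e ≠ 0 ∧ T.B e e = 0 ∧ P.Bpf := by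
  obtain ⟨f, hf, hn⟩ := I.exists_nef hx0 h00 h0S
  exact I.bpf_of_nef hf hn

end IsoIn

end Vale.Agent.P290.H416
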