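import Vale.Agent.P267.H661.GaudOf

/-! P290 / H416: closed-surface facts for a surface with `b_1 = 0` and a nowhere vanishing
holomorphic two-form (K3 surfaces), on top of helper469's abstract calculus of forms:
`H^{0,1} = 0`, the `(1,1)` representative, the Hodge index inequality for classes orthogonal to a
fibre class (no Kaehler metric is used), and the `INDEP` statement of `EllLat`. -/

namespace Vale.Agent.P290.H416

noncomputable section

open scoped ComplexConjugate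
open Vale.Agent.P267.H469

variable {Ω0 Ω1 Ω2 Ω3 : Type*} [AddCommGroup Ω0] [Module ℂ Ω0] [AddCommGroup Ω1]
    [Module ℂ Ω1] [AddCommGroup Ω2] [Module ℂ Ω2] [AddCommGroup Ω3] [Module ℂ Ω3]

variable (C : Calc Ω0 Ω1 Ω2 Ω3)

/-- The scalar input (package GAUD of P267, helper661): a functional `G` whose kernel is the image
of `u ↦ tr (∂∂̄ u)`. -/
abbrev GFun := Vale.Agent.P267.H661.Scal C

variable {C}

/-- `d(∂v) = - d(∂̄ v)` -/
theorem d1_p10_d0 (v : Ω0) : C.d1 (C.p10 (C.d0 v)) = - C.d1 (C.p01 (C.d0 v)) := by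
  have h : C.d1 (C.p10 (C.d0 v)) + C.d1 (C.p01 (C.d0 v)) = 0 := by
    rw [← map_add, C.p1_add, C.d1d0]
  exact eq_neg_of_add_eq_zero_left h

/-- `tr (∂∂̄ u)` is compatible with conjugation -/
theorem c0_tr_ddc (u : Ω0) : C.c0 (C.tr (C.d1 (C.p01 (C.d0 u)))) =
    C.tr (C.d1 (C.p01 (C.d0 (C.c0 u)))) := by
  have h := C.tr_conj (C.d1 (C.p01 (C.d0 u)))
  rw [← C.d1c, C.c1_p01, ← C.d0c, d1_p10_d0, map_neg, neg_inj] at h
  exact h.symm

namespace GFun

variable (A : GFun C)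

/-- the functional commutes with conjugation up to the normalisation `G 1` -/
theorem G_conj (g : Ω0) : A.G (C.c0 g) = conj (A.G g / A.G C.one) * A.G C.one := by
  obtain ⟨u, hu⟩ := A.G_surj (g - (A.G g / A.G C.one) • C.one) (by
    rw [map_sub, map_smul, smul_eq_mul, div_mul_cancel₀ _ A.G_one, sub_self])
  have h := A.G_ddc (C.c0 u)
  rw [← c0_tr_ddc, hu, map_sub, LinearMap.map_smulₛₗ, C.c0one, map_sub, map_smul, smul_eq_mul,
    sub_eq_zero] at h
  exact h

include A in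
/-- (K1) `b_1 = 0` implies `H^{0,1} = 0`. -/
theorem H01 (hb : ∀ a, C.d1 a = 0 → ∃ u, a = C.d0 u) {a : Ω1} (ha : C.is01 a)
    (h2 : C.p02 (C.d1 a) = 0) : ∃ u, a = C.p01 (C.d0 u) := by
  have h20 : C.p20 (C.d1 a) = 0 := by rw [← ha, C.integ']
  have h11 : C.is11 (C.d1 a) := Calc.is11_iff.2 ⟨h20, h2⟩
  -- the value of `G` on the trace of `d (z a + conj)` is purely imaginary after normalisation
  set w : ℂ := A.G (C.tr (C.d1 a)) / A.G C.one with hw
  obtain ⟨z, hz, hz2⟩ : ∃ z : ℂ, z ≠ 0 ∧ z * w - conj (z * w) = 0 := by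
    by_cases h0 : w = 0
    · exact ⟨1, one_ne_zero, by simp [h0]⟩
    · refine ⟨conj w, by simpa using h0, ?_⟩
      rw [map_mul, Complex.conj_conj, mul_comm, sub_self]
  set γ : Ω1 := z • a + C.c1 (z • a) with hγ
  have hp01 : C.p01 γ = z • a := by
    have h3 : C.is10 (C.c1 (z • a)) := by
      unfold Calc.is10
      rw [← C.c1_p01, map_smul, ha]
    rw [hγ, map_add, h3.p01_eq, add_zero, map_smul, ha]
  have h11γ : C.is11 (C.d1 γ) := by
    have h3 : C.is11 (C.d1 (z • a)) := by rw [map_smul]; exact h11.smul z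
    have h4 : C.is11 (C.c2 (C.d1 (z • a))) := by
      unfold Calc.is11 at *
      rw [← C.c2_p11, h3]
    rw [hγ, map_add, C.d1c]
    exact h3.add h4
  have hG : A.G (C.tr (C.d1 γ)) = 0 := by
    have h5 : A.G (C.tr (C.d1 a)) = w * A.G C.one := by
      rw [hw, div_mul_cancel₀ _ A.G_one]
    rw [hγ, map_add, map_add, C.d1c, C.tr_conj, map_add, map_neg, A.G_conj, map_smul, map_smul,
      map_smul, smul_eq_mul, mul_div_assoc, ← hw, h5, ← sub_eq_add_neg, ← mul_assoc, ← sub_mul,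
      hz2, zero_mul]
  obtain ⟨u, hu⟩ := A.G_surj _ hG
  have hη : C.d1 (γ - C.p01 (C.d0 u)) = 0 := by
    apply C.neg11' _ _ _ _
    · rw [map_sub]
      exact h11γ.sub (C.is11_ddc u)
    · rw [map_sub, map_sub, hu, sub_self]
    · rw [C.I22_exact _ (C.d2_c2_d1 _)]
      simp
  obtain ⟨v, hv⟩ := hb _ hη
  have h6 : z • a = C.p01 (C.d0 (u + v)) := by
    have h7 : C.p01 (γ - C.p01 (C.d0 u)) = C.p01 (C.d0 v) := by rw [hv]
    rw [map_sub, hp01, C.p01_idem] at h7
    rw [map_add, map_add, ← h7]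
    abel
  refine ⟨z⁻¹ • (u + v), ?_⟩
  rw [map_smul, map_smul, ← h6, smul_smul, inv_mul_cancel₀ hz, one_smul]

end GFun

/-- (K2) The `(1,1)` representative of a closed form orthogonal to the holomorphic two-form.
`H02` is Serre duality on a surface with trivial canonical bundle. -/
theorem exists_11' {Om : Ω2} (h20 : C.p20 Om = Om)
    (H02 : ∀ b, C.p02 b = b → C.I22 b Om = 0 → ∃ a, C.is01 a ∧ C.p02 (C.d1 a) = b)
    {F : Ω2} (h1 : C.I22 F Om = 0) (h2 : C.I22 F (C.c2 Om) = 0) :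
    ∃ a, C.is11 (F - C.d1 a) ∧ (C.c2 F = F → C.c1 a = a) := by
  have key : ∀ F, C.I22 F Om = 0 → C.I22 (C.p02 F) Om = 0 := by
    intro F h
    have e := C.I22_p20 Om F
    rw [h20, C.I22_symm Om F, h, C.I22_symm] at e
    exact e.symm
  obtain ⟨a, ha, e1⟩ := H02 (C.p02 F) (C.p02_idem F) (key F h1)
  have h2' : C.I22 (C.c2 F) Om = 0 := by
    have h := C.I22_conj F (C.c2 Om)
    rw [C.c2c2, h2, map_zero] at h
    exact h
  obtain ⟨b, hb, e2⟩ := H02 (C.p02 (C.c2 F)) (C.p02_idem _) (key _ h2')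
  by_cases hr : C.c2 F = F
  · refine ⟨a + C.c1 a, ?_, fun _ => by rw [map_add, C.c1c1, add_comm]⟩
    have ha' : C.is10 (C.c1 a) := by
      unfold Calc.is10 Calc.is01 at *
      rw [← C.c1_p01, ha]
    have e02 : C.p02 (F - C.d1 (a + C.c1 a)) = 0 := by
      rw [map_sub, map_add, map_add, e1, ← ha', C.integ, add_zero, sub_self]
    rw [Calc.is11_iff]
    refine ⟨?_, e02⟩
    have e : C.c2 (F - C.d1 (a + C.c1 a)) = F - C.d1 (a + C.c1 a) := by
      rw [map_sub, hr, ← C.d1c, map_add, C.c1c1, add_comm]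
    have h := congrArg C.c2 e02
    rw [C.c2_p02, e, map_zero] at h
    exact h
  · refine ⟨a + C.c1 b, ?_, fun h => absurd h hr⟩
    have hb' : C.is10 (C.c1 b) := by
      unfold Calc.is10 Calc.is01 at *
      rw [← C.c1_p01, hb]
    rw [Calc.is11_iff]
    constructor
    · have h3 : C.p20 (C.d1 (C.c1 b)) = C.p20 F := by
        have h4 := congrArg C.c2 e2
        rw [C.c2_p02, C.c2_p02, C.c2c2, ← C.d1c] at h4
        exact h4
      have h5 : C.p20 (C.d1 a) = 0 := by rw [← ha, C.integ']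
      rw [map_sub, map_add, map_add, h5, h3, zero_add, sub_self]
    · rw [map_sub, map_add, map_add, e1, ← hb', C.integ, add_zero, sub_self]

/-! ### pairing with closed forms -/

/-- change by exact forms does not change the pairing of closed forms -/
theorem I22_sub_exact {F G : Ω2} (hG : C.d2 G = 0) (a : Ω1) :
    C.I22 (F - C.d1 a) G = C.I22 F G := by
  rw [map_sub, LinearMap.sub_apply, C.I22_exact a hG, sub_zero]

theorem I22_sub_exact' {F G : Ω2} (hF : C.d2 F = 0) (a : Ω1) :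
    C.I22 F (G - C.d1 a) = C.I22 F G := by
  rw [C.I22_symm, I22_sub_exact hF, C.I22_symm]

/-- pairings of real forms are real -/
theorem I22_real {F G : Ω2} (hF : C.c2 F = F) (hG : C.c2 G = G) :
    ((C.I22 F G).re : ℂ) = C.I22 F G := by
  have h := C.I22_conj F G
  rw [hF, hG] at h
  exact (Complex.conj_eq_iff_re.1 h.symm)

namespace GFun

variable (A : GFun C)

include A in
/-- (K3) **Hodge index inequality** for real closed `(1,1)`-forms orthogonal to a real closed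
`(1,1)`-form `ε` with `ε² = 0` and positive degree (`G (tr ε) ≠ 0`, e.g. `ε` = pull-back of an
area form by a fibration). No Kaehler metric is needed. -/
theorem hodge_index {ε F : Ω2} (hε : C.is11 ε) (hεr : C.c2 ε = ε) (hεc : C.d2 ε = 0)
    (hεG : A.G (C.tr ε) ≠ 0) (hεε : C.I22 ε ε = 0)
    (hF : C.is11 F) (hFr : C.c2 F = F) (hFc : C.d2 F = 0) (hFε : C.I22 F ε = 0) :
    (C.I22 F F).re ≤ 0 ∧ (0 ≤ (C.I22 F F).re → ∃ (t : ℝ) (a : Ω1), F = (t : ℂ) • ε + C.d1 a) := by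
  -- `A.G (tr F) / A.G (tr ε)` is real
  set t : ℂ := A.G (C.tr F) / A.G (C.tr ε) with ht
  have hconj : ∀ F : Ω2, C.c2 F = F → conj (A.G (C.tr F) / A.G C.one) =
      - (A.G (C.tr F) / A.G C.one) := by
    intro F hF
    have h := A.G_conj (C.tr F)
    have h2 := C.tr_conj F
    rw [hF] at h2
    have h3 : C.c0 (C.tr F) = - C.tr F := (neg_eq_iff_eq_neg.2 h2).symm
    rw [h3, map_neg] at h
    have h4 := A.G_one
    field_simp at h ⊢
    linear_combination (norm := ring_nf) -h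
  have htr : conj t = t := by
    have e1 := hconj F hFr
    have e2 := hconj ε hεr
    have e3 : t = (A.G (C.tr F) / A.G C.one) / (A.G (C.tr ε) / A.G C.one) := by
      rw [ht, div_div_div_cancel_right₀ A.G_one]
    rw [e3, map_div₀, e1, e2, neg_div_neg_eq]
  obtain ⟨r, hr⟩ : ∃ r : ℝ, (r : ℂ) = t := Complex.conj_eq_iff_real.1 htr |>.imp fun _ h => h.symm
  have hG0 : A.G (C.tr (F - t • ε)) = 0 := by
    rw [map_sub, map_smul, map_sub, map_smul, smul_eq_mul, ht, div_mul_cancel₀ _ hεG, sub_self]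
  obtain ⟨u, hu⟩ := A.G_surj _ hG0
  set a : Ω1 := C.p01 (C.d0 u) with ha
  set F' : Ω2 := F - t • ε - C.d1 a with hF'
  have h11 : C.is11 F' := (hF.sub (hε.smul t)).sub (C.is11_ddc u)
  have htr0 : C.tr F' = 0 := by rw [hF', map_sub, hu, sub_self]
  have hcl : C.d2 (F - t • ε) = 0 := by rw [map_sub, map_smul, hFc, hεc, smul_zero, sub_zero]
  have hre : C.c2 (F - t • ε) = F - t • ε := by
    rw [map_sub, LinearMap.map_smulₛₗ, hFr, hεr, htr]
  have key : C.I22 F' (C.c2 F') = C.I22 F F := by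
    rw [hF', C.I22_herm a hcl, hre]
    simp only [map_sub, map_smul, LinearMap.sub_apply, LinearMap.smul_apply, smul_eq_mul]
    rw [hεε, hFε, C.I22_symm ε F, hFε]
    ring
  constructor
  · rw [← key]
    exact C.neg11 _ h11 htr0
  · intro h
    rw [← key] at h
    have h0 := C.neg11' _ h11 htr0 h
    refine ⟨r, a, ?_⟩
    rw [hr, ← sub_eq_zero, ← h0, hF']
    abel

include A in
/-- (K4) **NEG** for closed real two-forms: `F ⟂ Om`, `F ⟂ ε` implies `F² ≤ 0`, with equality only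
for real multiples of `ε` up to exact forms. -/
theorem neg {Om : Ω2} (h20 : C.p20 Om = Om)
    (H02 : ∀ b, C.p02 b = b → C.I22 b Om = 0 → ∃ a, C.is01 a ∧ C.p02 (C.d1 a) = b)
    {ε F : Ω2} (hε : C.is11 ε) (hεr : C.c2 ε = ε) (hεc : C.d2 ε = 0)
    (hεG : A.G (C.tr ε) ≠ 0) (hεε : C.I22 ε ε = 0)
    (hFr : C.c2 F = F) (hFc : C.d2 F = 0) (hFO : C.I22 F Om = 0) (hFε : C.I22 F ε = 0) :
    (C.I22 F F).re ≤ 0 ∧ (0 ≤ (C.I22 F F).re → ∃ (t : ℝ) (a : Ω1), F = (t : ℂ) • ε + C.d1 a) := by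
  have h2 : C.I22 F (C.c2 Om) = 0 := by
    have h := C.I22_conj F Om
    rw [hFr, hFO, map_zero] at h
    exact h
  obtain ⟨b, hb11, hbr⟩ := exists_11' h20 H02 hFO h2
  have hbr' := hbr hFr
  have hc' : C.d2 (F - C.d1 b) = 0 := by rw [map_sub, hFc, C.d2d1, sub_zero]
  have hr' : C.c2 (F - C.d1 b) = F - C.d1 b := by rw [map_sub, hFr, ← C.d1c, hbr']
  have hε' : C.I22 (F - C.d1 b) ε = 0 := by rw [I22_sub_exact hεc, hFε]
  have hFF : C.I22 (F - C.d1 b) (F - C.d1 b) = C.I22 F F := by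
    rw [I22_sub_exact hc', I22_sub_exact' hFc]
  obtain ⟨h1, h2⟩ := A.hodge_index hε hεr hεc hεG hεε hb11 hr' hc' hε'
  rw [hFF] at h1 h2
  refine ⟨h1, fun h => ?_⟩
  obtain ⟨t, a, e⟩ := h2 h
  refine ⟨t, a + b, ?_⟩
  rw [map_add, ← add_assoc, ← e]
  abel

end GFun

/-- `∫ Ω ∧ Ω = 0` -/
theorem I22_Om_Om {Om : Ω2} (h20 : C.p20 Om = Om) : C.I22 Om Om = 0 := by
  have e := C.I22_p20 Om Om
  rw [h20] at e
  have h3 : C.p02 Om = 0 := by rw [← h20, C.p02_p20]
  rw [e, h3, map_zero]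

/-- `(2,0)`- and `(1,1)`-forms are orthogonal -/
theorem I22_Om_11 {Om ε : Ω2} (h20 : C.p20 Om = Om) (hε : C.is11 ε) : C.I22 Om ε = 0 := by
  have e := C.I22_p20 Om ε
  rw [h20, hε.p02_eq, map_zero] at e
  exact e

/-- (K5) **INDEP**: if the real form `a Re Om + b Im Om = z Om + conj (z Om)` is a real multiple of
`ε` modulo the orthogonal complement of all closed forms, then `z = 0`. -/
theorem indep {Om ε : Ω2} (h20 : C.p20 Om = Om) (hOc : C.d2 Om = 0) (hO : Om ≠ 0)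
    (hε : C.is11 ε) (hεc : C.d2 ε = 0) (hεε : C.I22 ε ε = 0)
    {z l : ℂ} (h : ∀ F, C.d2 F = 0 → C.I22 F (z • Om + C.c2 (z • Om) - l • ε) = 0)
    (hcc : C.d2 (C.c2 Om) = 0) : z = 0 := by
  set w : Ω2 := z • Om + C.c2 (z • Om) - l • ε with hw
  have hwc : C.d2 w = 0 := by
    rw [hw, map_sub, map_add, map_smul, LinearMap.map_smulₛₗ, map_smul, map_smul, hOc, hεc, hcc]
    simp
  have h1 := h w hwc
  have hOε : C.I22 Om ε = 0 := I22_Om_11 h20 hε
  have hcOε : C.I22 (C.c2 Om) ε = 0 := by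
    have h3 : C.is11 (C.c2 ε) := by
      unfold Calc.is11 at *
      rw [← C.c2_p11, hε]
    have h4 := C.I22_conj Om (C.c2 ε)
    rw [I22_Om_11 h20 h3, C.c2c2, map_zero] at h4
    exact h4
  have hOO := I22_Om_Om h20
  have hcOO : C.I22 (C.c2 Om) (C.c2 Om) = 0 := by rw [C.I22_conj, hOO, map_zero]
  have e : C.I22 w w = 2 * (z * conj z) * C.I22 Om (C.c2 Om) := by
    rw [hw]
    simp only [map_sub, map_add, map_smul, LinearMap.map_smulₛₗ, LinearMap.sub_apply,
      LinearMap.add_apply, LinearMap.smul_apply, smul_eq_mul]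
    rw [hOO, hcOO, hOε, hcOε, hεε, C.I22_symm ε Om, hOε, C.I22_symm ε (C.c2 Om), hcOε,
      C.I22_symm (C.c2 Om) Om]
    ring
  rw [h1] at e
  by_contra hz
  have hne : C.I22 Om (C.c2 Om) = 0 := by
    have h5 : (2 * (z * conj z)) ≠ 0 := by
      simpa using hz
    exact (mul_eq_zero.1 e.symm).resolve_left h5
  exact hO (C.pos20 Om h20 (by rw [hne]; simp))

end

end Vale.Agent.P290.H416
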