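import Vale.Agent.P290.H416.K3Calc

/-! P290 / H416: the statements NEG and INDEP of helper345's `EllLat`, and the Lefschetz `(1,1)`
property, for a lattice of closed real two-forms on a surface with `b_1 = 0` and trivial canonical
bundle, on top of helper469's abstract calculus of forms. -/

namespace Vale.Agent.P290.H416

noncomputable section

open scoped ComplexConjugate
open Vale.Agent.P267.H469

variable {Ω0 Ω1 Ω2 Ω3 : Type*} [AddCommGroup Ω0] [Module ℂ Ω0] [AddCommGroup Ω1]
    [Module ℂ Ω1] [AddCommGroup Ω2] [Module ℂ Ω2] [AddCommGroup Ω3] [Module ℂ Ω3]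

/-- A lattice of (classes of) closed real two-forms, with integral intersection form, which spans
the second de Rham cohomology. -/
structure FLat (C : Calc Ω0 Ω1 Ω2 Ω3) (H : Type*) [AddCommGroup H] where
  /-- the intersection form -/
  B : H →+ H →+ ℤ
  /-- the representing form -/
  φ : H → Ω2
  closed : ∀ x, C.d2 (φ x) = 0
  real : ∀ x, C.c2 (φ x) = φ x
  add : ∀ x y, ∃ a, φ (x + y) = φ x + φ y + C.d1 a
  pair : ∀ x y, C.I22 (φ x) (φ y) = (B x y : ℂ)
  span : ∀ F, C.d2 F = 0 → ∃ (n : ℕ) (t : Fin n → ℂ) (x : Fin n → H) (a : Ω1),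
    F = ∑ i, t i • φ (x i) + C.d1 a
  nondeg : ∀ x, (∀ y, B x y = 0) → x = 0

variable {C : Calc Ω0 Ω1 Ω2 Ω3} {H : Type*} [AddCommGroup H] (T : FLat C H)

namespace FLat

theorem symm (x y : H) : T.B x y = T.B y x := by
  have h1 := T.pair x y
  have h2 := T.pair y x
  rw [C.I22_symm, h2] at h1
  exact_mod_cast h1.symm

/-- pairing with a closed form is additive on `H` -/
theorem pair_add {G : Ω2} (hG : C.d2 G = 0) (x y : H) :
    C.I22 (T.φ (x + y)) G = C.I22 (T.φ x) G + C.I22 (T.φ y) G := by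
  obtain ⟨a, ha⟩ := T.add x y
  rw [ha, map_add, map_add, LinearMap.add_apply, LinearMap.add_apply, C.I22_exact a hG, add_zero]

/-- the periods of a closed two-form -/
def per (Om : Ω2) (hO : C.d2 Om = 0) : H →+ ℂ where
  toFun x := C.I22 (T.φ x) Om
  map_zero' := by
    have h := T.pair_add hO 0 0
    rw [add_zero] at h
    exact left_eq_add.1 h
  map_add' x y := T.pair_add hO x y

theorem per_apply (Om : Ω2) (hO : C.d2 Om = 0) (x : H) :
    T.per Om hO x = C.I22 (T.φ x) Om := rfl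

/-- a closed form which is orthogonal to the lattice is orthogonal to all closed forms -/
theorem orth {G : Ω2} (hG : C.d2 G = 0) (h : ∀ x, C.I22 (T.φ x) G = 0) {F : Ω2}
    (hF : C.d2 F = 0) : C.I22 F G = 0 := by
  obtain ⟨n, t, x, a, rfl⟩ := T.span F hF
  rw [map_add, LinearMap.add_apply, C.I22_exact a hG, add_zero, map_sum, LinearMap.sum_apply]
  refine Finset.sum_eq_zero fun i _ => ?_
  rw [map_smul, LinearMap.smul_apply, h, smul_zero]

/-- the period of the fibre class is zero -/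
theorem per_fib {Om ε : Ω2} (hOc : C.d2 Om = 0) (h20 : C.p20 Om = Om) (hε : C.is11 ε) {e : H}
    {a : Ω1} (he : T.φ e = ε + C.d1 a) : T.per Om hOc e = 0 := by
  rw [per_apply, he, map_add, LinearMap.add_apply, C.I22_exact a hOc, add_zero, C.I22_symm,
    I22_Om_11 h20 hε]

theorem pair_fib {ε : Ω2} {e : H} {a : Ω1} (he : T.φ e = ε + C.d1 a) (x : H) :
    C.I22 (T.φ x) ε = (T.B x e : ℂ) := by
  have h : ε = T.φ e - C.d1 a := by rw [he, add_sub_cancel_right]
  rw [h, I22_sub_exact' (T.closed x), T.pair]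

/-- **NEG.** `x.e = 0`, `σ(x) = 0` implies `x² ≤ 0`, with equality only for multiples of `e`. -/
theorem neg (A : GFun C) {Om : Ω2} (hOc : C.d2 Om = 0) (h20 : C.p20 Om = Om)
    (H02 : ∀ b, C.p02 b = b → C.I22 b Om = 0 → ∃ a, C.is01 a ∧ C.p02 (C.d1 a) = b)
    {ε : Ω2} (hε : C.is11 ε) (hεr : C.c2 ε = ε) (hεc : C.d2 ε = 0) (hεG : A.G (C.tr ε) ≠ 0)
    {e c : H} {a : Ω1} (he : T.φ e = ε + C.d1 a) (hee : T.B e e = 0) (hce : T.B c e = 1)
    {x : H} (hx : T.B x e = 0) (hσ : T.per Om hOc x = 0) :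
    T.B x x ≤ 0 ∧ (T.B x x = 0 → ∃ k : ℤ, x = k • e) := by
  have hεε : C.I22 ε ε = 0 := by
    have h : ε = T.φ e - C.d1 a := by rw [he, add_sub_cancel_right]
    have h2 := T.pair_fib he e
    rw [hee, Int.cast_zero] at h2
    conv_lhs => rw [h]
    rw [I22_sub_exact, I22_sub_exact' (T.closed e), T.pair, hee, Int.cast_zero]
    rw [map_sub, T.closed, C.d2d1, sub_zero]
  have hxε : C.I22 (T.φ x) ε = 0 := by rw [T.pair_fib he, hx, Int.cast_zero]
  obtain ⟨h1, h2⟩ := A.neg h20 H02 hε hεr hεc hεG hεε (T.real x) (T.closed x) hσ hxε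
  rw [T.pair] at h1 h2
  constructor
  · have h3 : ((T.B x x : ℤ) : ℝ) ≤ 0 := by simpa using h1
    exact_mod_cast h3
  · intro h0
    obtain ⟨t, b, hb⟩ := h2 (by rw [h0]; simp)
    -- `x.y = t e.y` for all `y`
    have hy : ∀ y, ((T.B x y : ℤ) : ℂ) = t * ((T.B e y : ℤ) : ℂ) := by
      intro y
      rw [← T.pair, hb, map_add, LinearMap.add_apply, C.I22_exact b (T.closed y), add_zero,
        map_smul, LinearMap.smul_apply, smul_eq_mul, C.I22_symm ε, T.pair_fib he, T.symm y e]
    have ht : ((T.B x c : ℤ) : ℂ) = t := by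
      rw [hy c, T.symm e c, hce, Int.cast_one, mul_one]
    refine ⟨T.B x c, sub_eq_zero.1 (T.nondeg _ fun y => ?_)⟩
    have h3 := hy y
    rw [← ht] at h3
    have h4 : T.B x y = T.B x c * T.B e y := by exact_mod_cast h3
    rw [map_sub, AddMonoidHom.sub_apply, h4, map_zsmul, AddMonoidHom.zsmul_apply, smul_eq_mul,
      sub_self]

/-- **INDEP.** `Re σ` and `Im σ` are linearly independent on `e^⊥`. -/
theorem indep {Om : Ω2} (hOc : C.d2 Om = 0) (hOcc : C.d2 (C.c2 Om) = 0) (h20 : C.p20 Om = Om)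
    (hO : Om ≠ 0) {ε : Ω2} (hε : C.is11 ε) (hεc : C.d2 ε = 0)
    {e c : H} {a : Ω1} (he : T.φ e = ε + C.d1 a) (hee : T.B e e = 0) (hce : T.B c e = 1)
    {s t : ℝ} (h : ∀ x, T.B x e = 0 →
      s * (T.per Om hOc x).re + t * (T.per Om hOc x).im = 0) : s = 0 ∧ t = 0 := by
  have hεε : C.I22 ε ε = 0 := by
    have h : ε = T.φ e - C.d1 a := by rw [he, add_sub_cancel_right]
    conv_lhs => rw [h]
    rw [I22_sub_exact, I22_sub_exact' (T.closed e), T.pair, hee, Int.cast_zero]
    rw [map_sub, T.closed, C.d2d1, sub_zero]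
  -- the functional `f = s Re σ + t Im σ` is `f c` times `(. , e)`
  set f : H → ℝ := fun x => s * (T.per Om hOc x).re + t * (T.per Om hOc x).im with hf
  have hfl : ∀ x, f x = (T.B x e : ℝ) * f c := by
    intro x
    have h1 := h (x - T.B x e • c) (by
      rw [map_sub, AddMonoidHom.sub_apply, map_zsmul, AddMonoidHom.zsmul_apply, hce,
        smul_eq_mul, mul_one, sub_self])
    rw [map_sub, map_zsmul, Complex.sub_re, Complex.sub_im, zsmul_eq_mul] at h1
    simp only [Complex.mul_re, Complex.mul_im, Complex.intCast_re, Complex.intCast_im] at h1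
    simp only [hf]
    linear_combination h1
  set z : ℂ := (s - t * Complex.I) / 2 with hz
  have key : ∀ x, C.I22 (T.φ x) (z • Om + C.c2 (z • Om) - (f c : ℂ) • ε) = 0 := by
    intro x
    have h2 : C.I22 (T.φ x) (C.c2 Om) = conj (T.per Om hOc x) := by
      have := C.I22_conj (T.φ x) Om
      rw [T.real] at this
      exact this
    rw [map_sub, map_add, map_smul, LinearMap.map_smulₛₗ, map_smul, map_smul, h2,
      ← T.per_apply Om hOc, T.pair_fib he]
    simp only [smul_eq_mul]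
    have h3 := hfl x
    have h4 : z * T.per Om hOc x + conj z * conj (T.per Om hOc x) = (f x : ℂ) := by
      rw [← map_mul, Complex.add_conj]
      simp only [hz, hf]
      push_cast
      rw [Complex.mul_re]
      simp
      ring
    rw [h4, h3]
    push_cast
    ring
  have hcl : C.d2 (z • Om + C.c2 (z • Om) - (f c : ℂ) • ε) = 0 := by
    rw [map_sub, map_add, map_smul, LinearMap.map_smulₛₗ, map_smul, map_smul, hOc, hεc, hOcc]
    simp
  have hz0 : z = 0 := Vale.Agent.P290.H416.indep h20 hOc hO hε hεc hεε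
    (fun F hF => T.orth hcl key hF) hOcc
  have h5 : (s : ℂ) - t * Complex.I = 0 := by
    rw [hz] at hz0
    simpa using hz0
  have h6 := congrArg Complex.re h5
  have h7 := congrArg Complex.im h5
  simp at h6 h7
  exact ⟨h6, h7⟩

/-- **Lefschetz (1,1)**, form level. -/
theorem lefschetz {Om : Ω2} (hOc : C.d2 Om = 0) (h20 : C.p20 Om = Om)
    (H02 : ∀ b, C.p02 b = b → C.I22 b Om = 0 → ∃ a, C.is01 a ∧ C.p02 (C.d1 a) = b) {x : H} :
    T.per Om hOc x = 0 ↔ ∃ b, C.c1 b = b ∧ C.is11 (T.φ x - C.d1 b) := by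
  constructor
  · intro h
    have h2 : C.I22 (T.φ x) (C.c2 Om) = 0 := by
      have h3 := C.I22_conj (T.φ x) Om
      rw [T.real, ← T.per_apply Om hOc, h, map_zero] at h3
      exact h3
    obtain ⟨b, hb, hbr⟩ := exists_11' h20 H02 h h2
    exact ⟨b, hbr (T.real x), hb⟩
  · rintro ⟨b, -, hb⟩
    have h1 := I22_Om_11 h20 hb
    rw [C.I22_symm, I22_sub_exact hOc] at h1
    exact h1

end FLat

end

end Vale.Agent.P290.H416
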