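import Vale.Agent.P290.H416.UniW

/-! P290 / H416 (F3): isotropic vectors in indefinite unimodular lattices, elementary proof.
Part (D): coordinates, diagonalisation, the end of the argument. -/

open Module

namespace Vale.Agent.P290.H416.Uni

open QS W

namespace QS

/-- coordinates on `X ⊥ <a_1> ⊥ ... ⊥ <a_r>` -/
theorem coord (X : QS) (a : List Nz) : ∃ e : (X.exts a).V ≃ₗ[ℚ] X.V × (Fin a.length → ℚ),
    ∀ x y, (X.exts a).B x y = X.B (e x).1 (e y).1 +
      ∑ i, ((a.get i).1 : ℚ) * (e x).2 i * (e y).2 i := by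
  induction a generalizing X with
  | nil =>
    let e : X.V ≃ₗ[ℚ] X.V × (Fin 0 → ℚ) :=
      { toFun := fun x => (x, fun i => i.elim0)
        map_add' := fun _ _ => Prod.ext rfl (funext fun i => i.elim0)
        map_smul' := fun _ _ => Prod.ext rfl (funext fun i => i.elim0)
        invFun := fun x => x.1
        left_inv := fun _ => rfl
        right_inv := fun _ => Prod.ext rfl (funext fun i => i.elim0) }
    refine ⟨e, fun x y => ?_⟩
    change X.B x y = X.B x y + ∑ i : Fin 0, _
    rw [Finset.univ_eq_empty, Finset.sum_empty, add_zero]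
  | cons c a ih =>
    obtain ⟨e, he⟩ := ih (X.ext c.1)
    let e' : ((X.V × ℚ) × (Fin a.length → ℚ)) ≃ₗ[ℚ] X.V × (Fin (a.length + 1) → ℚ) :=
      { toFun := fun z => (z.1.1, Fin.cons z.1.2 z.2)
        map_add' := fun x y => by
          refine Prod.ext rfl (funext fun i => ?_)
          refine Fin.cases ?_ (fun i => ?_) i <;> rfl
        map_smul' := fun r x => by
          refine Prod.ext rfl (funext fun i => ?_)
          refine Fin.cases ?_ (fun i => ?_) i <;> rfl
        invFun := fun z => ((z.1, z.2 0), fun i => z.2 i.succ)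
        left_inv := fun z => rfl
        right_inv := fun z => by
          refine Prod.ext rfl (funext fun i => ?_)
          refine Fin.cases ?_ (fun i => ?_) i <;> rfl }
    refine ⟨e.trans e', fun x y => ?_⟩
    refine (he x y).trans ?_
    change X.B (e x).1.1 (e y).1.1 + (c.1 : ℚ) * (e x).1.2 * (e y).1.2 +
      ∑ i, ((a.get i).1 : ℚ) * (e x).2 i * (e y).2 i = X.B (e x).1.1 (e y).1.1 +
      ∑ i : Fin (a.length + 1), (((c :: a).get i).1 : ℚ) * (Fin.cons (e x).1.2 (e x).2 : Fin (a.length + 1) → ℚ) i *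
        (Fin.cons (e y).1.2 (e y).2 : Fin (a.length + 1) → ℚ) i
    rw [Fin.sum_univ_succ, add_assoc]
    rfl

theorem met_exts_iff (X : QS) (a : List Nz) : Met (X.exts a) ↔
    ∃ K : Submodule ℚ (X.V × (Fin a.length → ℚ)), (∀ x ∈ K, ∀ y ∈ K,
      X.B x.1 y.1 + ∑ i, ((a.get i).1 : ℚ) * x.2 i * y.2 i = 0) ∧
      finrank ℚ X.V + a.length ≤ 2 * finrank ℚ K := by
  obtain ⟨e, he⟩ := coord X a
  constructor
  · rintro ⟨K, hK, hd⟩
    refine ⟨K.map (e : _ →ₗ[ℚ] _), ?_, ?_⟩
    · rintro _ ⟨x, hx, rfl⟩ _ ⟨y, hy, rfl⟩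
      exact (he x y).symm.trans (hK x hx y hy)
    · rw [LinearEquiv.finrank_map_eq e K, ← finrank_exts]
      exact hd
  · rintro ⟨K, hK, hd⟩
    refine ⟨K.map (e.symm : _ →ₗ[ℚ] _), ?_, ?_⟩
    · rintro _ ⟨x, hx, rfl⟩ _ ⟨y, hy, rfl⟩
      have h := he (e.symm x) (e.symm y)
      rw [e.apply_symm_apply, e.apply_symm_apply] at h
      exact h.trans (hK x hx y hy)
    · rw [LinearEquiv.finrank_map_eq e.symm K, finrank_exts]
      exact hd

/-- **Diagonalisation**: a nondegenerate symmetric space is Witt equivalent to a diagonal one. -/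
theorem exists_diag (X : QS) (hs : ∀ x y, X.B x y = X.B y x)
    (hn : ∀ x, (∀ y, X.B x y = 0) → x = 0) : ∃ a : List Nz, Met (X.exts a) := by
  have hB : LinearMap.IsSymm (X.B : LinearMap.BilinForm ℚ X.V) := ⟨fun x y => hs x y⟩
  have : Invertible (2 : ℚ) := invertibleOfNonzero two_ne_zero
  obtain ⟨v, hv⟩ := LinearMap.BilinForm.exists_orthogonal_basis hB
  have hform : ∀ x y, X.B x y = ∑ i, X.B (v i) (v i) * v.repr x i * v.repr y i := by
    intro x y
    conv_lhs => rw [← v.sum_repr x, ← v.sum_repr y]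
    rw [map_sum (X.B) , LinearMap.sum_apply]
    refine Finset.sum_congr rfl fun i _ => ?_
    rw [map_smul, LinearMap.smul_apply, map_sum, Finset.sum_eq_single i]
    · rw [map_smul, smul_eq_mul, smul_eq_mul]; ring
    · intro j _ hj
      have h1 : X.B (v i) (v j) = 0 := hv hj.symm
      rw [map_smul, h1, smul_zero]
    · intro h; exact absurd (Finset.mem_univ i) h
  have hq : ∀ i, X.B (v i) (v i) ≠ 0 := by
    intro i h0
    have h1 : v i = 0 := by
      refine hn _ fun y => ?_
      rw [hform]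
      refine Finset.sum_eq_zero fun j _ => ?_
      by_cases hj : j = i
      · rw [hj, h0]; ring
      · rw [v.repr_self, Finsupp.single_eq_of_ne hj]; ring
    exact v.ne_zero i h1
  -- the entries
  let c : Fin (finrank ℚ X.V) → Nz := fun i => ⟨-((X.B (v i) (v i)).num * (X.B (v i) (v i)).den), by
    refine neg_ne_zero.2 (mul_ne_zero (Rat.num_ne_zero.2 (hq i)) ?_)
    exact_mod_cast (X.B (v i) (v i)).den_ne_zero⟩
  refine ⟨List.ofFn c, (met_exts_iff _ _).2 ?_⟩
  have hlen : (List.ofFn c).length = finrank ℚ X.V := List.length_ofFn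
  -- the graph
  let s : X.V →ₗ[ℚ] (Fin (List.ofFn c).length → ℚ) :=
    LinearMap.pi fun i => ((X.B (v (i.cast hlen)) (v (i.cast hlen))).den : ℚ)⁻¹ •
      (v.coord (i.cast hlen))
  have hs' : ∀ x i, s x i = ((X.B (v (i.cast hlen)) (v (i.cast hlen))).den : ℚ)⁻¹ *
      v.repr x (i.cast hlen) := fun x i => rfl
  let j : X.V →ₗ[ℚ] X.V × (Fin (List.ofFn c).length → ℚ) := LinearMap.id.prod s
  have hj : Function.Injective j := fun x y h => congrArg Prod.fst h
  refine ⟨LinearMap.range j, ?_, ?_⟩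
  · rintro _ ⟨x, rfl⟩ _ ⟨y, rfl⟩
    change X.B x y + ∑ i, (((List.ofFn c).get i).1 : ℚ) * s x i * s y i = 0
    have e : ∑ i, (((List.ofFn c).get i).1 : ℚ) * s x i * s y i =
        ∑ i : Fin (finrank ℚ X.V), -(X.B (v i) (v i) * v.repr x i * v.repr y i) := by
      refine Fintype.sum_equiv (finCongr hlen) _ _ fun i => ?_
      have h1 : ((List.ofFn c).get i) = c (i.cast hlen) := by
        rw [List.get_ofFn]
      rw [h1, hs', hs']
      change ((-((X.B (v (i.cast hlen)) (v (i.cast hlen))).num *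
        ((X.B (v (i.cast hlen)) (v (i.cast hlen))).den : ℤ)) : ℤ) : ℚ) * _ * _ = _
      rw [show finCongr hlen i = i.cast hlen from rfl]
      have h2 := hq (i.cast hlen)
      generalize v.repr x (i.cast hlen) = α
      generalize v.repr y (i.cast hlen) = β
      generalize X.B (v (i.cast hlen)) (v (i.cast hlen)) = q at *
      have h3 : (q.den : ℚ) ≠ 0 := by exact_mod_cast q.den_ne_zero
      have h4 : (q.num : ℚ) = q * q.den := (Rat.mul_den_eq_num q).symm
      push_cast
      rw [h4]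
      field_simp
    rw [e, Finset.sum_neg_distrib, ← hform, add_neg_cancel]
  · rw [LinearMap.finrank_range_of_inj hj, hlen]
    omega

/-- **The end**: `X ⊥ t<ε>` metabolic and `X` indefinite. -/
theorem end_step (X : QS) {t : ℕ} {ε : Nz} (hε : ε.1 = 1 ∨ ε.1 = -1)
    {v : X.V} (hv : 0 < (ε.1 : ℚ) * X.B v v) (h : Met (X.exts (List.replicate t ε))) :
    ∃ x : X.V, x ≠ 0 ∧ X.B x x = 0 := by
  obtain ⟨a, ha⟩ : ∃ a, a = List.replicate t ε := ⟨_, rfl⟩
  rw [← ha] at h
  obtain ⟨K, hK, hd⟩ := (met_exts_iff _ _).1 h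
  have hlen : a.length = t := by rw [ha]; exact List.length_replicate
  have hget : ∀ i, a.get i = ε := fun i => by
    have h1 : a.get i ∈ List.replicate t ε := ha ▸ List.get_mem a i
    exact List.eq_of_mem_replicate h1
  have hεε : (ε.1 : ℚ) * (ε.1 : ℚ) = 1 := by
    rcases hε with h | h <;> rw [h] <;> norm_num
  -- the definite subspace
  let j : ℚ × (Fin a.length → ℚ) →ₗ[ℚ] X.V × (Fin a.length → ℚ) :=
    { toFun := fun z => (z.1 • v, z.2)
      map_add' := fun x y => Prod.ext (add_smul _ _ _) rfl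
      map_smul' := fun r x => Prod.ext (mul_smul _ _ _) rfl }
  have hvne : v ≠ 0 := by
    rintro rfl
    rw [map_zero, mul_zero] at hv
    exact lt_irrefl _ hv
  have hj : Function.Injective j := by
    intro x y h
    have h1 : x.1 • v = y.1 • v := congrArg Prod.fst h
    have h2 : x.2 = y.2 := congrArg (fun z : X.V × (Fin a.length → ℚ) => z.2) h
    exact Prod.ext (smul_left_injective ℚ hvne h1) h2
  have hdis : Disjoint K (LinearMap.range j) := by
    rw [Submodule.disjoint_def]
    rintro _ hx ⟨z, rfl⟩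
    have h1 := hK _ hx _ hx
    change X.B (z.1 • v) (z.1 • v) + ∑ i, ((a.get i).1 : ℚ) * z.2 i * z.2 i = 0 at h1
    rw [map_smul, map_smul, LinearMap.smul_apply, smul_eq_mul, smul_eq_mul] at h1
    have h2 : ∑ i, ((a.get i).1 : ℚ) * z.2 i * z.2 i = (ε.1 : ℚ) * ∑ i, z.2 i * z.2 i := by
      rw [Finset.mul_sum]
      exact Finset.sum_congr rfl fun i _ => by rw [hget i]; ring
    rw [h2] at h1
    have h3 : z.1 * z.1 * ((ε.1 : ℚ) * X.B v v) + ∑ i, z.2 i * z.2 i = 0 := by
      linear_combination (ε.1 : ℚ) * h1 - (∑ i, z.2 i * z.2 i) * hεε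
    have h4 : 0 ≤ ∑ i, z.2 i * z.2 i := Finset.sum_nonneg fun i _ => mul_self_nonneg _
    have h5 : 0 ≤ z.1 * z.1 * ((ε.1 : ℚ) * X.B v v) := mul_nonneg (mul_self_nonneg _) hv.le
    have h6 : z.1 * z.1 * ((ε.1 : ℚ) * X.B v v) = 0 := by linarith
    have h7 : ∑ i, z.2 i * z.2 i = 0 := by linarith
    have h8 : z.1 = 0 := by
      rcases mul_eq_zero.1 h6 with h | h
      · exact mul_self_eq_zero.1 h
      · exact absurd h hv.ne'
    have h9 : z.2 = 0 := by
      funext i
      have := (Finset.sum_eq_zero_iff_of_nonneg fun i _ => mul_self_nonneg (z.2 i)).1 h7 i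
        (Finset.mem_univ i)
      exact mul_self_eq_zero.1 this
    have h10 : z = 0 := Prod.ext h8 h9
    rw [h10, map_zero]
  have h1 := Submodule.finrank_add_finrank_le_of_disjoint hdis
  rw [LinearMap.finrank_range_of_inj hj, finrank_prod, finrank_prod, finrank_self,
    Module.finrank_fin_fun] at h1
  -- the intersection with `X`
  let q : K →ₗ[ℚ] (Fin a.length → ℚ) := (LinearMap.snd ℚ _ _).comp K.subtype
  have h2 := LinearMap.finrank_range_add_finrank_ker q
  have h3 := Submodule.finrank_le (LinearMap.range q)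
  rw [Module.finrank_fin_fun] at h3
  have h4 : 0 < finrank ℚ (LinearMap.ker q) := by omega
  have := Module.nontrivial_of_finrank_pos h4
  obtain ⟨x, hx⟩ := exists_ne (0 : LinearMap.ker q)
  have hx2 : x.1.1.2 = 0 := x.2
  refine ⟨x.1.1.1, fun h0 => hx ?_, ?_⟩
  · exact Subtype.ext (Subtype.ext (Prod.ext h0 hx2))
  · have h5 := hK _ x.1.2 _ x.1.2
    rw [hx2] at h5
    simpa using h5

end QS

/-- clearing denominators -/
theorem exists_int {ι : Type} [Fintype ι] (x : ι → ℚ) : ∃ (d : ℕ) (z : ι → ℤ), d ≠ 0 ∧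
    ∀ i, (z i : ℚ) = d * x i := by
  classical
  refine ⟨∏ i, (x i).den, fun i => (x i).num * ∏ j ∈ Finset.univ.erase i, ((x j).den : ℤ), ?_, ?_⟩
  · exact Finset.prod_ne_zero_iff.2 fun i _ => (x i).den_ne_zero
  · intro i
    rw [← Finset.mul_prod_erase _ _ (Finset.mem_univ i)]
    push_cast
    have h : ((x i).num : ℚ) = x i * (x i).den := (Rat.mul_den_eq_num _).symm
    rw [h]
    ring

/-- the space of an integral matrix -/
def ofMat {ι : Type} [Fintype ι] (G : Matrix ι ι ℤ) : QS where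
  V := ι → ℚ
  B := LinearMap.mk₂ ℚ (fun x y => ∑ i, ∑ j, (G i j : ℚ) * x i * y j)
    (fun x x' y => by
      rw [← Finset.sum_add_distrib]
      refine Finset.sum_congr rfl fun i _ => ?_
      rw [← Finset.sum_add_distrib]
      refine Finset.sum_congr rfl fun j _ => ?_
      rw [Pi.add_apply]; ring)
    (fun a x y => by
      rw [smul_eq_mul, Finset.mul_sum]
      refine Finset.sum_congr rfl fun i _ => ?_
      rw [Finset.mul_sum]
      refine Finset.sum_congr rfl fun j _ => ?_
      rw [Pi.smul_apply, smul_eq_mul]; ring)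
    (fun x y y' => by
      rw [← Finset.sum_add_distrib]
      refine Finset.sum_congr rfl fun i _ => ?_
      rw [← Finset.sum_add_distrib]
      refine Finset.sum_congr rfl fun j _ => ?_
      rw [Pi.add_apply]; ring)
    (fun a x y => by
      rw [smul_eq_mul, Finset.mul_sum]
      refine Finset.sum_congr rfl fun i _ => ?_
      rw [Finset.mul_sum]
      refine Finset.sum_congr rfl fun j _ => ?_
      rw [Pi.smul_apply, smul_eq_mul]; ring)

theorem ofMat_B {ι : Type} [Fintype ι] (G : Matrix ι ι ℤ) (x y : ι → ℚ) :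
    (ofMat G).B x y = ∑ i, ∑ j, (G i j : ℚ) * x i * y j := rfl

theorem ofMat_symm {ι : Type} [Fintype ι] {G : Matrix ι ι ℤ} (hG : G.IsSymm) (x y : ι → ℚ) :
    (ofMat G).B x y = (ofMat G).B y x := by
  rw [ofMat_B, ofMat_B, Finset.sum_comm]
  refine Finset.sum_congr rfl fun i _ => Finset.sum_congr rfl fun j _ => ?_
  rw [hG.apply]
  ring

theorem ofMat_nondeg {ι : Type} [Fintype ι] [DecidableEq ι] {G : Matrix ι ι ℤ} (hG : G.IsSymm)
    (hd : G.det ≠ 0) (x : ι → ℚ) (hx : ∀ y : ι → ℚ, (ofMat G).B x y = 0) : x = 0 := by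
  have h1 : (G.map (Int.cast : ℤ → ℚ)).mulVec x = 0 := by
    funext i
    have h2 := hx (Pi.single i 1)
    rw [ofMat_symm hG, ofMat_B] at h2
    rw [Finset.sum_eq_single i] at h2
    · simp only [Pi.single_eq_same, mul_one] at h2
      exact h2
    · intro k _ hk
      refine Finset.sum_eq_zero fun j _ => ?_
      rw [Pi.single_eq_of_ne hk]; ring
    · intro h; exact absurd (Finset.mem_univ i) h
  refine Matrix.eq_zero_of_mulVec_eq_zero ?_ h1
  have h3 : (G.map (Int.cast : ℤ → ℚ)).det = (G.det : ℚ) := by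
    have := (Int.castRingHom ℚ).map_det G
    exact this.symm
  rw [h3]
  exact_mod_cast hd

end Vale.Agent.P290.H416.Uni
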