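import Vale.Agent.P290.H416.UniD

/-! P290 / H416 (F3): isotropic vectors in indefinite unimodular lattices, elementary proof.
Part (E): assembly from the mod `p` reduction (`RedStmt`) and the mod `p` Lagrangian lemma
(`LagrStmt`). -/

open Module

namespace Vale.Agent.P290.H416.Uni

open QS W

/-- nonzero integers all of whose prime factors are `< k` -/
def Sm (k : ℕ) : Set ℤ := {m | m ≠ 0 ∧ ∀ q : ℕ, q.Prime → (q : ℤ) ∣ m → q < k}

/-- part (A) -/
def RedStmt : Prop := ∀ {A : Type} [AddCommGroup A] (f : ℤ → A) (_ : ∀ c ≠ 0, f (-c) = -f c)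
    (_ : ∀ c s, c ≠ 0 → s ≠ 0 → f (c * s ^ 2) = f c)
    (_ : ∀ a b, a ≠ 0 → b ≠ 0 → a + b ≠ 0 → f a + f b = f (a + b) + f (a * b * (a + b)))
    (p : ℕ) (_ : p.Prime) (w : A) (_ : w ∈ AddSubgroup.closure (f '' Sm (p + 1))),
    ∃ ms : List ℤ, (∀ m ∈ ms, m ∈ Sm p) ∧
      (∀ t : Fin ms.length → ℤ, (p : ℤ) ∣ ∑ i, ms.get i * t i ^ 2 → ∀ i, (p : ℤ) ∣ t i) ∧
      w - (ms.map fun m => f (p * m)).sum ∈ AddSubgroup.closure (f '' Sm p)

/-- part (C) -/
def LagrStmt : Prop := ∀ {p : ℕ} (_ : p.Prime) {ι κ : Type} [Fintype ι] [Fintype κ]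
    [DecidableEq ι] (M : Matrix ι ι ℤ) (_ : M.IsSymm) (_ : ¬ (p : ℤ) ∣ M.det) (m : κ → ℤ)
    (_ : ∀ t : κ → ℤ, (p : ℤ) ∣ ∑ k, m k * t k ^ 2 → ∀ k, (p : ℤ) ∣ t k)
    (K : Submodule ℚ ((ι → ℚ) × (κ → ℚ)))
    (_ : ∀ x ∈ K, ∀ y ∈ K, (∑ i, ∑ j, (M i j : ℚ) * x.1 i * y.1 j) +
      p * ∑ k, (m k : ℚ) * x.2 k * y.2 k = 0)
    (_ : Fintype.card ι + Fintype.card κ ≤ 2 * finrank ℚ K), IsEmpty κ

theorem Sm_ne_zero {k : ℕ} {m : ℤ} (h : m ∈ Sm k) : m ≠ 0 := h.1

theorem Sm_neg {k : ℕ} {m : ℤ} (h : m ∈ Sm k) : -m ∈ Sm k :=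
  ⟨neg_ne_zero.2 h.1, fun q hq hd => h.2 q hq ((dvd_neg).1 hd)⟩

theorem Sm_mono {k l : ℕ} (h : k ≤ l) : Sm k ⊆ Sm l :=
  fun _ hm => ⟨hm.1, fun q hq hd => (hm.2 q hq hd).trans_le h⟩

theorem Sm_succ {k : ℕ} (h : ¬ k.Prime) : Sm (k + 1) ⊆ Sm k := fun m hm => ⟨hm.1, fun q hq hd => by
  have h1 := hm.2 q hq hd
  rcases (Nat.lt_succ_iff.1 h1).lt_or_eq with h2 | h2
  · exact h2
  · exact absurd (h2 ▸ hq) h⟩

theorem exists_Sm (c : ℤ) (hc : c ≠ 0) : c ∈ Sm (c.natAbs + 1) := ⟨hc, fun q _ hd => by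
  have h1 : q ∣ c.natAbs := Int.natCast_dvd.1 hd
  exact Nat.lt_succ_of_le (Nat.le_of_dvd (Int.natAbs_pos.2 hc) h1)⟩

theorem Sm_two {m : ℤ} (h : m ∈ Sm 2) : m = 1 ∨ m = -1 := by
  have h1 : m.natAbs = 1 := by
    by_contra hne
    obtain ⟨q, hq, hd⟩ := Nat.exists_prime_and_dvd hne
    have h2 := h.2 q hq (Int.natCast_dvd.2 hd)
    exact absurd h2 (not_lt.2 hq.two_le)
  exact Int.natAbs_eq_iff.1 h1 |>.imp id id

theorem not_dvd_of_Sm {p : ℕ} (hp : p.Prime) {m : ℤ} (h : m ∈ Sm p) : ¬ (p : ℤ) ∣ m :=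
  fun hd => lt_irrefl _ (h.2 p hp hd)

/-- one step of the descent -/
theorem descend (hred : RedStmt) (hlagr : LagrStmt) {ι : Type} [Fintype ι] [DecidableEq ι]
    {G : Matrix ι ι ℤ} (hs : G.IsSymm) (hd : IsUnit G.det) {w : W} (hM : MetW (ofMat G) w)
    {p : ℕ} (hp : p.Prime) (hw : w ∈ AddSubgroup.closure (f '' Sm (p + 1))) :
    w ∈ AddSubgroup.closure (f '' Sm p) := by
  classical
  obtain ⟨ms, hms, han, hsub⟩ := hred f f_neg f_sq f_add p hp w hw
  have hp0 : (p : ℤ) ≠ 0 := by exact_mod_cast hp.ne_zero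
  obtain ⟨b, hb, hbw⟩ := exists_list (fun c hc => Sm_ne_zero hc) (fun c hc => Sm_neg hc) hsub
  -- the list of the `p m`
  let g : ℤ → Nz := fun m => if h : m ≠ 0 then ⟨p * m, mul_ne_zero hp0 h⟩ else ⟨1, one_ne_zero⟩
  have hg : ∀ m ∈ ms, (g m).1 = p * m := fun m hm => by
    have h : m ≠ 0 := (hms m hm).1
    simp only [g, dif_pos h]
  have hsum : mk (ms.map g) = (ms.map fun m => f (p * m)).sum := by
    rw [mk_eq_sum, List.map_map]
    congr 1
    refine List.map_congr_left fun m hm => ?_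
    rw [Function.comp_apply, hg m hm]
  have hw' : w = mk (b ++ ms.map g) := by
    rw [mk_append, hsum, hbw, sub_add_cancel]
  rw [hw', metW_mk, exts_append] at hM
  obtain ⟨K, hK, hdim⟩ := (met_exts_iff _ _).1 hM
  obtain ⟨e, he⟩ := coord (ofMat G) b
  have hlen : (ms.map g).length = ms.length := List.length_map _
  let m : Fin (ms.map g).length → ℤ := fun i => ms.get (i.cast hlen)
  have hm : ∀ i, (((ms.map g).get i).1 : ℤ) = p * m i := fun i => by
    have h1 : (ms.map g).get i = g (ms.get (i.cast hlen)) := by simp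
    rw [h1, hg _ (List.get_mem _ _)]
  -- the total space in coordinates
  let M : Matrix (ι ⊕ Fin b.length) (ι ⊕ Fin b.length) ℤ :=
    Matrix.fromBlocks G 0 0 (Matrix.diagonal fun i => (b.get i).1)
  have hMs : M.IsSymm := Matrix.IsSymm.fromBlocks hs (by simp) (Matrix.isSymm_diagonal _)
  have hMd : ¬ (p : ℤ) ∣ M.det := by
    rw [Matrix.det_fromBlocks_zero₂₁, Matrix.det_diagonal]
    intro h
    rcases (Nat.prime_iff_prime_int.1 hp).dvd_or_dvd h with h1 | h1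
    · exact (Nat.prime_iff_prime_int.1 hp).not_isUnit (isUnit_of_dvd_unit h1 hd)
    · obtain ⟨i, -, hi⟩ := (Prime.dvd_finsetProd_iff (Nat.prime_iff_prime_int.1 hp) _).1 h1
      exact not_dvd_of_Sm hp (hb _ (List.get_mem _ _)) hi
  let e1 : ((ofMat G).exts b).V ≃ₗ[ℚ] ((ι ⊕ Fin b.length) → ℚ) :=
    e.trans (LinearEquiv.sumArrowLequivProdArrow ι (Fin b.length) ℚ ℚ).symm
  have he1 : ∀ x i, e1 x (Sum.inl i) = (e x).1 i := fun x i => rfl
  have he2 : ∀ x i, e1 x (Sum.inr i) = (e x).2 i := fun x i => rfl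
  let e2 : (((ofMat G).exts b).V × (Fin (ms.map g).length → ℚ)) ≃ₗ[ℚ]
      (((ι ⊕ Fin b.length) → ℚ) × (Fin (ms.map g).length → ℚ)) :=
    e1.prodCongr (LinearEquiv.refl ℚ _)
  have hBM : ∀ x y, ((ofMat G).exts b).B x y = ∑ i, ∑ j, (M i j : ℚ) * e1 x i * e1 y j := by
    intro x y
    rw [he, Fintype.sum_sum_type]
    congr 1
    · refine (ofMat_B G _ _).trans ?_
      refine Finset.sum_congr rfl fun i _ => ?_
      rw [Fintype.sum_sum_type]
      have h0 : ∑ j : Fin b.length, ((M (Sum.inl i) (Sum.inr j) : ℤ) : ℚ) * e1 x (Sum.inl i) *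
          e1 y (Sum.inr j) = 0 := by
        refine Finset.sum_eq_zero fun j _ => ?_
        simp [M]
      rw [h0, add_zero]
      refine Finset.sum_congr rfl fun j _ => ?_
      rw [he1, he1]
      simp [M]
    · refine Finset.sum_congr rfl fun i _ => ?_
      rw [Fintype.sum_sum_type]
      have h0 : ∑ j : ι, ((M (Sum.inr i) (Sum.inl j) : ℤ) : ℚ) * e1 x (Sum.inr i) *
          e1 y (Sum.inl j) = 0 := by
        refine Finset.sum_eq_zero fun j _ => ?_
        simp [M]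
      rw [h0, zero_add, Finset.sum_eq_single i]
      · rw [he2, he2]
        simp [M]
      · intro j _ hj
        simp [M, Matrix.diagonal_apply_ne' _ hj]
      · intro h; exact absurd (Finset.mem_univ i) h
  have hempty : IsEmpty (Fin (ms.map g).length) := by
    refine hlagr hp M hMs hMd m ?_ (K.map (e2 : _ →ₗ[ℚ] _)) ?_ ?_
    · intro t ht i
      have h1 : ∑ k, m k * t k ^ 2 = ∑ i : Fin ms.length, ms.get i * t (i.cast hlen.symm) ^ 2 :=
        Fintype.sum_equiv (finCongr hlen) _ _ fun i => rfl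
      rw [h1] at ht
      exact han (fun i => t (i.cast hlen.symm)) ht (i.cast hlen)
    · rintro _ ⟨x, hx, rfl⟩ _ ⟨y, hy, rfl⟩
      have h1 := hK x hx y hy
      rw [hBM] at h1
      rw [← h1]
      congr 1
      rw [Finset.mul_sum]
      refine Finset.sum_congr rfl fun i _ => ?_
      have h2 : (((ms.map g).get i).1 : ℚ) = (p : ℚ) * (m i : ℚ) := by
        have := hm i
        exact_mod_cast this
      rw [h2]
      change (p : ℚ) * ((m i : ℚ) * x.2 i * y.2 i) = _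
      ring
    · rw [LinearEquiv.finrank_map_eq e2 K]
      refine le_trans (le_of_eq ?_) hdim
      rw [finrank_exts]
      have h1 : finrank ℚ (ofMat G).V = Fintype.card ι := Module.finrank_fintype_fun_eq_card ℚ
      rw [h1, Fintype.card_sum, Fintype.card_fin, Fintype.card_fin]
  have h0 : ms = [] := by
    have h1 : (ms.map g).length = 0 := by
      by_contra hne
      exact hempty.false ⟨0, Nat.pos_of_ne_zero hne⟩
    exact List.length_eq_zero_iff.1 (hlen ▸ h1)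
  rw [h0, List.map_nil, List.sum_nil, sub_zero] at hsub
  exact hsub

theorem descend_all (hred : RedStmt) (hlagr : LagrStmt) {ι : Type} [Fintype ι] [DecidableEq ι]
    {G : Matrix ι ι ℤ} (hs : G.IsSymm) (hd : IsUnit G.det) {w : W} (hM : MetW (ofMat G) w)
    (k : ℕ) (hw : w ∈ AddSubgroup.closure (f '' Sm (k + 2))) :
    w ∈ AddSubgroup.closure (f '' Sm 2) := by
  induction k with
  | zero => exact hw
  | succ k ih =>
    refine ih ?_
    by_cases hp : (k + 2).Prime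
    · exact descend hred hlagr hs hd hM hp hw
    · exact AddSubgroup.closure_mono (Set.image_mono (Sm_succ hp)) hw

theorem mk_replicate (n : ℕ) (ε : Nz) : mk (List.replicate n ε) = n • mk [ε] := by
  induction n with
  | zero => rw [zero_nsmul]; rfl
  | succ n ih =>
    rw [List.replicate_succ, succ_nsmul, ← ih, add_comm, ← mk_append]
    rfl

theorem mem_closure_list {a : List Nz} {S : Set ℤ} (h : ∀ c ∈ a, c.1 ∈ S) :
    mk a ∈ AddSubgroup.closure (f '' S) := by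
  rw [mk_eq_sum]
  refine AddSubgroup.list_sum_mem _ fun x hx => ?_
  obtain ⟨c, hc, rfl⟩ := List.mem_map.1 hx
  exact AddSubgroup.subset_closure ⟨c.1, h c hc, rfl⟩

theorem exists_bound (a : List Nz) : ∃ k : ℕ, ∀ c ∈ a, c.1 ∈ Sm (k + 2) := by
  induction a with
  | nil => exact ⟨0, by simp⟩
  | cons c a ih =>
    obtain ⟨k, hk⟩ := ih
    refine ⟨k + c.1.natAbs, fun d hd => ?_⟩
    rcases List.mem_cons.1 hd with h | h
    · rw [h]
      exact Sm_mono (by omega) (exists_Sm c.1 c.2)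
    · exact Sm_mono (by omega) (hk d h)

/-- rational version -/
theorem isotropic_rat (hred : RedStmt) (hlagr : LagrStmt) {ι : Type} [Fintype ι] [DecidableEq ι]
    {G : Matrix ι ι ℤ} (hs : G.IsSymm) (hd : IsUnit G.det) {vp vm : ι → ℚ}
    (hp : 0 < (ofMat G).B vp vp) (hm : (ofMat G).B vm vm < 0) :
    ∃ x : ι → ℚ, x ≠ 0 ∧ (ofMat G).B x x = 0 := by
  obtain ⟨a, ha⟩ := exists_diag (ofMat G) (ofMat_symm hs) (ofMat_nondeg hs hd.ne_zero)
  obtain ⟨k, hk⟩ := exists_bound a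
  have hw := descend_all hred hlagr hs hd (w := mk a) ha k (mem_closure_list hk)
  have hw2 : mk a ∈ AddSubgroup.zmultiples (f 1) := by
    refine (AddSubgroup.closure_le _).2 ?_ hw
    rintro _ ⟨m, hm, rfl⟩
    rcases Sm_two hm with h | h
    · rw [h]; exact AddSubgroup.mem_zmultiples _
    · rw [h, f_neg 1 one_ne_zero]
      exact AddSubgroup.neg_mem _ (AddSubgroup.mem_zmultiples _)
  obtain ⟨n, hn⟩ := AddSubgroup.mem_zmultiples_iff.1 hw2
  rcases le_total 0 n with h0 | h0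
  · obtain ⟨t, rfl⟩ := Int.eq_ofNat_of_zero_le h0
    have h1 : mk a = mk (List.replicate t ⟨1, one_ne_zero⟩) := by
      rw [mk_replicate, ← f_of_ne (one_ne_zero), ← hn]
      exact natCast_zsmul _ _
    have h2 : Met ((ofMat G).exts (List.replicate t ⟨1, one_ne_zero⟩)) := by
      rw [← metW_mk, ← h1]; exact ha
    exact end_step (ofMat G) (Or.inl rfl) (v := vp) (by simpa using hp) h2
  · obtain ⟨t, ht⟩ := Int.eq_ofNat_of_zero_le (neg_nonneg.2 h0)
    have h1 : mk a = mk (List.replicate t ⟨-1, by norm_num⟩) := by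
      rw [mk_replicate, ← f_of_ne (by norm_num : (-1 : ℤ) ≠ 0), f_neg 1 one_ne_zero, ← hn,
        smul_neg, ← natCast_zsmul]
      change n • f 1 = -((t : ℤ) • f 1)
      have h3 : n = -(t : ℤ) := by
        have : -n = (t : ℤ) := ht
        omega
      rw [h3, neg_zsmul]
    have h2 : Met ((ofMat G).exts (List.replicate t ⟨-1, by norm_num⟩)) := by
      rw [← metW_mk, ← h1]; exact ha
    exact end_step (ofMat G) (Or.inr rfl) (v := vm) (by simpa using hm) h2

/-- rational approximation -/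
theorem exists_rat {ι : Type} [Fintype ι] (G : Matrix ι ι ℤ) {U : Set ℝ} (hU : IsOpen U)
    {v : ι → ℝ} (hv : ∑ i, ∑ j, v i * (G i j : ℝ) * v j ∈ U) :
    ∃ u : ι → ℚ, (((ofMat G).B u u : ℚ) : ℝ) ∈ U := by
  have hc : Continuous fun v : ι → ℝ => ∑ i, ∑ j, v i * (G i j : ℝ) * v j := by
    refine continuous_finsetSum _ fun i _ => continuous_finsetSum _ fun j _ => ?_
    exact ((continuous_apply i).mul continuous_const).mul (continuous_apply j)
  have hd : DenseRange (Pi.map (fun (_ : ι) (q : ℚ) => (q : ℝ))) :=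
    DenseRange.piMap fun _ => Rat.denseRange_cast
  obtain ⟨u, hu⟩ := hd.exists_mem_open (hU.preimage hc) ⟨v, hv⟩
  refine ⟨u, ?_⟩
  have e : (((ofMat G).B u u : ℚ) : ℝ) = ∑ i, ∑ j, (u i : ℝ) * (G i j : ℝ) * (u j : ℝ) := by
    rw [ofMat_B]
    push_cast
    refine Finset.sum_congr rfl fun i _ => Finset.sum_congr rfl fun j _ => ?_
    ring
  rw [e]
  exact hu

/-- **Theorem U**, from (A) and (C). -/
theorem isotropic_of (hred : RedStmt) (hlagr : LagrStmt) {ι : Type} [Fintype ι] [DecidableEq ι]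
    (G : Matrix ι ι ℤ) (hs : G.IsSymm) (hd : IsUnit G.det) (vp vm : ι → ℝ)
    (hp : 0 < ∑ i, ∑ j, vp i * (G i j : ℝ) * vp j)
    (hm : ∑ i, ∑ j, vm i * (G i j : ℝ) * vm j < 0) :
    ∃ x : ι → ℤ, x ≠ 0 ∧ ∑ i, ∑ j, x i * G i j * x j = 0 := by
  obtain ⟨up, hup⟩ := exists_rat G isOpen_Ioi (v := vp) hp
  obtain ⟨um, hum⟩ := exists_rat G isOpen_Iio (v := vm) hm
  obtain ⟨x, hx, hxx⟩ := isotropic_rat hred hlagr hs hd (vp := up) (vm := um)
    (by exact_mod_cast Set.mem_Ioi.1 hup) (by exact_mod_cast Set.mem_Iio.1 hum)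
  obtain ⟨d, z, hd0, hz⟩ := exists_int x
  have hd' : (d : ℚ) ≠ 0 := by exact_mod_cast hd0
  refine ⟨z, fun h => hx ?_, ?_⟩
  · funext i
    have h1 := hz i
    rw [h, Pi.zero_apply, Int.cast_zero] at h1
    exact (mul_eq_zero.1 h1.symm).resolve_left hd'
  · have h1 : ((∑ i, ∑ j, z i * G i j * z j : ℤ) : ℚ) = d * d * (ofMat G).B x x := by
      rw [ofMat_B, Finset.mul_sum]
      push_cast
      refine Finset.sum_congr rfl fun i _ => ?_
      rw [Finset.mul_sum]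
      refine Finset.sum_congr rfl fun j _ => ?_
      rw [hz, hz]
      ring
    rw [hxx, mul_zero] at h1
    exact_mod_cast h1

end Vale.Agent.P290.H416.Uni
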