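import Vale.Agent.P290.H416.UniE
import Vale.Agent.P290.H435.Red
import Vale.Agent.P290.H435.Lagr

/-! P290 / H416 (F3): **Theorem U**: an indefinite unimodular symmetric integral matrix has a
nonzero isotropic integral vector (any size, even or odd). -/

namespace Vale.Agent.P290.H416.Uni

theorem redStmt : RedStmt := fun f hneg hsq hadd p hp w hw =>
  Vale.Agent.P290.Meyer.red f hneg hsq hadd hp w hw

theorem lagrStmt : LagrStmt := by
  intro p hp ι κ _ _ _ M hM hdet m han K hK hdim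
  exact Vale.Agent.P290.Meyer.lagr hp M hM hdet m han K hK hdim

/-- **Theorem U.** -/
theorem isotropic_of_unimodular {ι : Type} [Fintype ι] [DecidableEq ι]
    (G : Matrix ι ι ℤ) (hs : G.IsSymm) (hd : IsUnit G.det) (vp vm : ι → ℝ)
    (hp : 0 < ∑ i, ∑ j, vp i * (G i j : ℝ) * vp j)
    (hm : ∑ i, ∑ j, vm i * (G i j : ℝ) * vm j < 0) :
    ∃ x : ι → ℤ, x ≠ 0 ∧ ∑ i, ∑ j, x i * G i j * x j = 0 :=
  isotropic_of redStmt lagrStmt G hs hd vp vm hp hm

end Vale.Agent.P290.H416.Uni
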