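import Mathlib

/-! P290 / H416 (F3): isotropic vectors in indefinite unimodular lattices, elementary proof.
Part (B): quadratic spaces over `ℚ`, metabolic spaces, the Witt group of diagonal forms. -/

open Module

namespace Vale.Agent.P290.H416.Uni

/-- a finite dimensional space over `ℚ` with a bilinear form -/
structure QS where
  V : Type
  [grp : AddCommGroup V]
  [mod : Module ℚ V]
  [fin : FiniteDimensional ℚ V]
  B : V →ₗ[ℚ] V →ₗ[ℚ] ℚ

attribute [instance] QS.grp QS.mod QS.fin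

namespace QS

/-- there is a totally isotropic subspace of at least half the dimension -/
def Met (X : QS) : Prop :=
  ∃ K : Submodule ℚ X.V, (∀ x ∈ K, ∀ y ∈ K, X.B x y = 0) ∧ finrank ℚ X.V ≤ 2 * finrank ℚ K

/-- isometric spaces -/
def Iso (X Y : QS) : Prop := ∃ e : X.V ≃ₗ[ℚ] Y.V, ∀ x y, Y.B (e x) (e y) = X.B x y

theorem Iso.refl (X : QS) : Iso X X := ⟨LinearEquiv.refl _ _, fun _ _ => rfl⟩

theorem Iso.symm {X Y : QS} (h : Iso X Y) : Iso Y X := by
  obtain ⟨e, he⟩ := h
  exact ⟨e.symm, fun x y => by rw [← he, e.apply_symm_apply, e.apply_symm_apply]⟩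

theorem Iso.trans {X Y Z : QS} (h : Iso X Y) (h' : Iso Y Z) : Iso X Z := by
  obtain ⟨e, he⟩ := h
  obtain ⟨e', he'⟩ := h'
  exact ⟨e.trans e', fun x y => by rw [← he, ← he']; rfl⟩

theorem Iso.met {X Y : QS} (h : Iso X Y) (hX : Met X) : Met Y := by
  obtain ⟨e, he⟩ := h
  obtain ⟨K, hK, hd⟩ := hX
  refine ⟨K.map (e : X.V →ₗ[ℚ] Y.V), ?_, ?_⟩
  · rintro _ ⟨x, hx, rfl⟩ _ ⟨y, hy, rfl⟩
    exact (he x y).trans (hK x hx y hy)
  · rw [LinearEquiv.finrank_map_eq e K, ← e.finrank_eq]
    exact hd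

theorem Iso.met_iff {X Y : QS} (h : Iso X Y) : Met X ↔ Met Y := ⟨h.met, h.symm.met⟩

/-- `X ⊥ <c>` -/
def ext (X : QS) (c : ℚ) : QS where
  V := X.V × ℚ
  B := LinearMap.mk₂ ℚ (fun x y => X.B x.1 y.1 + c * x.2 * y.2)
    (fun x x' y => by simp; ring) (fun a x y => by simp; ring)
    (fun x y y' => by simp; ring) (fun a x y => by simp; ring)

@[simp] theorem ext_B (X : QS) (c : ℚ) (x y : (X.ext c).V) :
    (X.ext c).B x y = X.B x.1 y.1 + c * x.2 * y.2 := rfl

theorem finrank_ext (X : QS) (c : ℚ) : finrank ℚ (X.ext c).V = finrank ℚ X.V + 1 := by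
  change finrank ℚ (X.V × ℚ) = _
  rw [finrank_prod, finrank_self]

theorem Iso.ext {X Y : QS} (h : Iso X Y) (c : ℚ) : Iso (X.ext c) (Y.ext c) := by
  obtain ⟨e, he⟩ := h
  refine ⟨e.prodCongr (LinearEquiv.refl ℚ ℚ), fun x y => ?_⟩
  change Y.B (e x.1) (e y.1) + c * x.2 * y.2 = _
  rw [he]
  rfl

/-- exchange of two summands -/
theorem iso_swap (X : QS) (c d : ℚ) : Iso ((X.ext c).ext d) ((X.ext d).ext c) := by
  let e : ((X.V × ℚ) × ℚ) ≃ₗ[ℚ] ((X.V × ℚ) × ℚ) :=
    { toFun := fun x => ((x.1.1, x.2), x.1.2)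
      map_add' := fun _ _ => rfl
      map_smul' := fun _ _ => rfl
      invFun := fun x => ((x.1.1, x.2), x.1.2)
      left_inv := fun _ => rfl
      right_inv := fun _ => rfl }
  refine ⟨e, fun x y => ?_⟩
  change X.B x.1.1 y.1.1 + d * x.2 * y.2 + c * x.1.2 * y.1.2 =
    X.B x.1.1 y.1.1 + c * x.1.2 * y.1.2 + d * x.2 * y.2
  ring

/-- squares -/
theorem iso_sq (X : QS) (c : ℚ) {s : ℚ} (hs : s ≠ 0) : Iso (X.ext (c * s ^ 2)) (X.ext c) := by
  let e : (X.V × ℚ) ≃ₗ[ℚ] (X.V × ℚ) :=
    { toFun := fun x => (x.1, s * x.2)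
      map_add' := fun x y => Prod.ext rfl (mul_add _ _ _)
      map_smul' := fun a x => Prod.ext rfl (by simp; ring)
      invFun := fun x => (x.1, s⁻¹ * x.2)
      left_inv := fun x => Prod.ext rfl (by simp [hs])
      right_inv := fun x => Prod.ext rfl (by simp [hs]) }
  refine ⟨e, fun x y => ?_⟩
  · change X.B x.1 y.1 + c * (s * x.2) * (s * y.2) = X.B x.1 y.1 + c * s ^ 2 * x.2 * y.2
    ring

/-- the binary relation -/
theorem iso_add (X : QS) {a b : ℚ} (hab : a + b ≠ 0) :
    Iso ((X.ext (a + b)).ext (a * b * (a + b))) ((X.ext a).ext b) := by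
  let e : ((X.V × ℚ) × ℚ) ≃ₗ[ℚ] ((X.V × ℚ) × ℚ) :=
    { toFun := fun x => ((x.1.1, x.1.2 + b * x.2), x.1.2 - a * x.2)
      map_add' := fun x y => by
        refine Prod.ext (Prod.ext rfl ?_) ?_
        · simp; ring
        · simp; ring
      map_smul' := fun r x => by
        refine Prod.ext (Prod.ext rfl ?_) ?_
        · simp; ring
        · simp; ring
      invFun := fun x => ((x.1.1, (a * x.1.2 + b * x.2) / (a + b)), (x.1.2 - x.2) / (a + b))
      left_inv := fun x => by
        refine Prod.ext (Prod.ext rfl ?_) ?_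
        · simp only
          field_simp
          ring
        · simp only
          field_simp
          ring
      right_inv := fun x => by
        refine Prod.ext (Prod.ext rfl ?_) ?_
        · simp only
          field_simp
          ring
        · simp only
          field_simp
          ring }
  refine ⟨e, fun x y => ?_⟩
  · change X.B x.1.1 y.1.1 + a * (x.1.2 + b * x.2) * (y.1.2 + b * y.2) +
      b * (x.1.2 - a * x.2) * (y.1.2 - a * y.2) =
      X.B x.1.1 y.1.1 + (a + b) * x.1.2 * y.1.2 + a * b * (a + b) * x.2 * y.2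
    ring

/-- adding a hyperbolic plane -/
theorem met_add {X : QS} (c : ℚ) (h : Met X) : Met ((X.ext c).ext (-c)) := by
  obtain ⟨K, hK, hd⟩ := h
  let j : K × ℚ →ₗ[ℚ] ((X.ext c).ext (-c)).V :=
    { toFun := fun x => ((x.1.1, x.2), x.2), map_add' := fun _ _ => rfl,
      map_smul' := fun _ _ => rfl }
  have hj : Function.Injective j := by
    intro x y h
    have h1 := congrArg (fun z : (X.V × ℚ) × ℚ => z.1.1) h
    have h2 := congrArg (fun z : (X.V × ℚ) × ℚ => z.2) h
    exact Prod.ext (Subtype.ext h1) h2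
  refine ⟨LinearMap.range j, ?_, ?_⟩
  · rintro _ ⟨x, rfl⟩ _ ⟨y, rfl⟩
    change X.B x.1.1 y.1.1 + c * x.2 * y.2 + -c * x.2 * y.2 = 0
    rw [hK _ x.1.2 _ y.1.2]
    ring
  · rw [LinearMap.finrank_range_of_inj hj, finrank_prod, finrank_self, finrank_ext, finrank_ext]
    omega

/-- cancelling a hyperbolic plane -/
theorem met_cancel {X : QS} {c : ℚ} (hc : c ≠ 0) (h : Met ((X.ext c).ext (-c))) : Met X := by
  obtain ⟨K, hK, hd⟩ := h
  rw [finrank_ext, finrank_ext] at hd
  -- the functional `s - t`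
  let φ : K →ₗ[ℚ] ℚ :=
    { toFun := fun x => x.1.1.2 - x.1.2
      map_add' := fun x y => by
        change (x.1.1.2 + y.1.1.2) - (x.1.2 + y.1.2) = _
        ring
      map_smul' := fun a x => by
        change a * x.1.1.2 - a * x.1.2 = a * (x.1.1.2 - x.1.2)
        ring }
  let ψ : K →ₗ[ℚ] X.V :=
    { toFun := fun x => x.1.1.1, map_add' := fun _ _ => rfl, map_smul' := fun _ _ => rfl }
  let K' : Submodule ℚ X.V := (LinearMap.ker φ).map ψ
  have hK' : ∀ x ∈ K', ∀ y ∈ K', X.B x y = 0 := by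
    rintro _ ⟨x, hx, rfl⟩ _ ⟨y, hy, rfl⟩
    have h1 := hK x.1 x.2 y.1 y.2
    change X.B x.1.1.1 y.1.1.1 + c * x.1.1.2 * y.1.1.2 + -c * x.1.2 * y.1.2 = 0 at h1
    have hx' : x.1.1.2 - x.1.2 = 0 := hx
    have hy' : y.1.1.2 - y.1.2 = 0 := hy
    change X.B x.1.1.1 y.1.1.1 = 0
    rw [sub_eq_zero] at hx' hy'
    rw [hx', hy'] at h1
    linarith
  refine ⟨K', hK', ?_⟩
  have h1 := LinearMap.finrank_range_add_finrank_ker φ
  have h2 : finrank ℚ (LinearMap.range φ) ≤ 1 := by
    have := Submodule.finrank_le (LinearMap.range φ)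
    rwa [finrank_self] at this
  -- kernel of `ψ` on `ker φ`
  let ψ' : LinearMap.ker φ →ₗ[ℚ] X.V := ψ.comp (LinearMap.ker φ).subtype
  have h3 : finrank ℚ K' = finrank ℚ (LinearMap.range ψ') := by
    have : LinearMap.range ψ' = K' := by
      rw [LinearMap.range_comp, Submodule.range_subtype]
    rw [this]
  have h4 := LinearMap.finrank_range_add_finrank_ker ψ'
  by_cases hl : ∃ s : ℚ, s ≠ 0 ∧ (((0 : X.V), s), s) ∈ K
  · -- `K` is contained in `ℓ^⊥`
    obtain ⟨s, hs, hsK⟩ := hl
    have h5 : φ = 0 := by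
      ext x
      have h6 := hK _ hsK x.1 x.2
      change X.B 0 x.1.1.1 + c * s * x.1.1.2 + -c * s * x.1.2 = 0 at h6
      rw [map_zero, LinearMap.zero_apply, zero_add] at h6
      change x.1.1.2 - x.1.2 = 0
      have h7 : (c * s) * (x.1.1.2 - x.1.2) = 0 := by linarith
      exact (mul_eq_zero.1 h7).resolve_left (mul_ne_zero hc hs)
    have h6 : finrank ℚ (LinearMap.range φ) = 0 := by
      rw [h5, LinearMap.range_zero, finrank_bot]
    have h7 : finrank ℚ (LinearMap.ker ψ') ≤ 1 := by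
      let θ : LinearMap.ker ψ' →ₗ[ℚ] ℚ :=
        { toFun := fun x => x.1.1.1.1.2
          map_add' := fun _ _ => rfl
          map_smul' := fun _ _ => rfl }
      have hθ : Function.Injective θ := by
        intro x y hxy
        have e1 : x.1.1.1.1.1 = 0 := x.2
        have e2 : y.1.1.1.1.1 = 0 := y.2
        have e3 : x.1.1.1.1.2 = y.1.1.1.1.2 := hxy
        have e4 : x.1.1.1.1.2 - x.1.1.1.2 = 0 := x.1.2
        have e5 : y.1.1.1.1.2 - y.1.1.1.2 = 0 := y.1.2
        refine Subtype.ext (Subtype.ext (Subtype.ext (Prod.ext (Prod.ext ?_ e3) ?_)))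
        · exact e1.trans e2.symm
        · linarith
      have := LinearMap.finrank_le_finrank_of_injective hθ
      rwa [finrank_self] at this
    omega
  · push Not at hl
    have h5 : LinearMap.ker ψ' = ⊥ := by
      rw [LinearMap.ker_eq_bot']
      intro x hx
      have e1 : x.1.1.1.1 = 0 := hx
      have e4 : x.1.1.1.2 - x.1.1.2 = 0 := x.2
      have e5 : x.1.1.1.2 = 0 := by
        by_contra hne
        refine hl _ hne ?_
        have e6 : x.1.1 = (((0 : X.V), x.1.1.1.2), x.1.1.1.2) := by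
          refine Prod.ext (Prod.ext e1 rfl) ?_
          exact (sub_eq_zero.1 e4).symm
        exact e6 ▸ x.1.2
      refine Subtype.ext (Subtype.ext (Prod.ext (Prod.ext e1 e5) ?_))
      have : x.1.1.2 = 0 := by rw [← sub_eq_zero.1 e4]; exact e5
      exact this
    have h6 : finrank ℚ (LinearMap.ker ψ') = 0 := by rw [h5, finrank_bot]
    omega

theorem met_hyp {X : QS} {c : ℚ} (hc : c ≠ 0) : Met ((X.ext c).ext (-c)) ↔ Met X :=
  ⟨met_cancel hc, met_add c⟩

/-- the opposite form -/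
def neg (X : QS) : QS where
  V := X.V
  B := -X.B

theorem neg_B (X : QS) (x y : X.V) : X.neg.B x y = -X.B x y := rfl

theorem met_neg {X : QS} (h : Met X) : Met X.neg := by
  obtain ⟨K, hK, hd⟩ := h
  exact ⟨K, fun x hx y hy => (congrArg Neg.neg (hK x hx y hy)).trans neg_zero, hd⟩

theorem met_neg_iff {X : QS} : Met X.neg ↔ Met X := by
  refine ⟨fun h => ?_, met_neg⟩
  have h1 : Iso X.neg.neg X := ⟨LinearEquiv.refl _ _, fun x y => (neg_neg _).symm⟩
  exact h1.met (met_neg h)

theorem Iso.neg {X Y : QS} (h : Iso X Y) : Iso X.neg Y.neg := by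
  obtain ⟨e, he⟩ := h
  exact ⟨e, fun x y => congrArg Neg.neg (he x y)⟩

theorem iso_neg_ext (X : QS) (c : ℚ) : Iso (X.ext c).neg (X.neg.ext (-c)) :=
  ⟨LinearEquiv.refl _ _, fun x y => by
    change -X.B x.1 y.1 + -c * x.2 * y.2 = -(X.B x.1 y.1 + c * x.2 * y.2)
    ring⟩

end QS

/-! ### lists of nonzero integers -/

/-- nonzero integers -/
abbrev Nz := {c : ℤ // c ≠ 0}

instance : Neg Nz := ⟨fun c => ⟨-c.1, neg_ne_zero.2 c.2⟩⟩

theorem neg_val (c : Nz) : (-c).1 = -c.1 := rfl

namespace QS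

/-- `X ⊥ <a_1> ⊥ ... ⊥ <a_r>` -/
def exts (X : QS) : List Nz → QS
  | [] => X
  | c :: a => (X.ext (c.1 : ℚ)).exts a

@[simp] theorem exts_nil (X : QS) : X.exts [] = X := rfl

theorem exts_cons (X : QS) (c : Nz) (a : List Nz) : X.exts (c :: a) = (X.ext (c.1 : ℚ)).exts a := rfl

theorem exts_append (X : QS) (a b : List Nz) : X.exts (a ++ b) = (X.exts a).exts b := by
  induction a generalizing X with
  | nil => rfl
  | cons c a ih => exact ih _

theorem Iso.exts {X Y : QS} (h : Iso X Y) (a : List Nz) : Iso (X.exts a) (Y.exts a) := by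
  induction a generalizing X Y with
  | nil => exact h
  | cons c a ih => exact ih (h.ext _)

theorem iso_perm {a b : List Nz} (h : a.Perm b) (X : QS) : Iso (X.exts a) (X.exts b) := by
  induction h generalizing X with
  | nil => exact Iso.refl _
  | cons c _ ih => exact ih _
  | swap c d a => exact (iso_swap X _ _).exts a
  | trans _ _ ih1 ih2 => exact (ih1 X).trans (ih2 X)

theorem iso_neg_exts (X : QS) (a : List Nz) :
    Iso (X.exts a).neg (X.neg.exts (a.map fun c => -c)) := by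
  induction a generalizing X with
  | nil => exact Iso.refl _
  | cons c a ih =>
    refine (ih (X.ext c.1)).trans ?_
    have h := (iso_neg_ext X (c.1 : ℚ)).exts (a.map fun c => -c)
    have e : ((-c : Nz).1 : ℚ) = -(c.1 : ℚ) := by rw [neg_val]; push_cast; rfl
    rw [List.map_cons, exts_cons, e]
    exact h

theorem finrank_exts (X : QS) (a : List Nz) : finrank ℚ (X.exts a).V = finrank ℚ X.V + a.length := by
  induction a generalizing X with
  | nil => rfl
  | cons c a ih => rw [exts_cons, ih, finrank_ext, List.length_cons]; ring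

end QS

open QS

/-- Witt equivalence of diagonal forms -/
def Eqv (a b : List Nz) : Prop := ∀ X : QS, Met (X.exts a) ↔ Met (X.exts b)

theorem Eqv.refl (a : List Nz) : Eqv a a := fun _ => Iff.rfl

theorem Eqv.symm {a b : List Nz} (h : Eqv a b) : Eqv b a := fun X => (h X).symm

theorem Eqv.trans {a b c : List Nz} (h : Eqv a b) (h' : Eqv b c) : Eqv a c :=
  fun X => (h X).trans (h' X)

theorem eqv_perm {a b : List Nz} (h : a.Perm b) : Eqv a b := fun X => (iso_perm h X).met_iff

theorem Eqv.append_left {b b' : List Nz} (h : Eqv b b') (a : List Nz) :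
    Eqv (a ++ b) (a ++ b') := fun X => by
  rw [exts_append, exts_append]; exact h _

theorem Eqv.append_right {a a' : List Nz} (h : Eqv a a') (b : List Nz) :
    Eqv (a ++ b) (a' ++ b) :=
  (eqv_perm List.perm_append_comm).trans
    ((h.append_left b).trans (eqv_perm List.perm_append_comm))

theorem Eqv.append {a a' b b' : List Nz} (h : Eqv a a') (h' : Eqv b b') :
    Eqv (a ++ b) (a' ++ b') := (h.append_right b).trans (h'.append_left a')

theorem Eqv.neg {a b : List Nz} (h : Eqv a b) :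
    Eqv (a.map fun c => -c) (b.map fun c => -c) := fun X => by
  have key : ∀ a : List Nz, Met (X.exts (a.map fun c => -c)) ↔ Met (X.neg.exts a) := by
    intro a
    have h1 : Iso X X.neg.neg := ⟨LinearEquiv.refl _ _, fun x y => neg_neg _⟩
    have h2 := iso_neg_exts X.neg a
    have h3 := h1.exts (a.map fun c => -c)
    rw [h3.met_iff, ← h2.met_iff, met_neg_iff]
  rw [key, key]
  exact h _

theorem eqv_hyp (c : Nz) : Eqv [c, -c] [] := fun X => by
  have e : ((-c : Nz).1 : ℚ) = -(c.1 : ℚ) := by rw [neg_val]; push_cast; rfl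
  change Met ((X.ext (c.1 : ℚ)).ext ((-c : Nz).1 : ℚ)) ↔ Met X
  rw [e]
  exact met_hyp (by exact_mod_cast c.2)

instance setoid : Setoid (List Nz) where
  r := Eqv
  iseqv := ⟨Eqv.refl, Eqv.symm, Eqv.trans⟩

/-- the Witt group of diagonal forms -/
def W : Type := Quotient setoid

namespace W

def mk (a : List Nz) : W := Quotient.mk _ a

theorem mk_eq {a b : List Nz} : mk a = mk b ↔ Eqv a b := Quotient.eq (r := setoid)

theorem exists_rep (w : W) : ∃ a, mk a = w := Quotient.exists_rep w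

instance : Zero W := ⟨mk []⟩

instance : Add W := ⟨Quotient.map₂ (· ++ ·) fun _ _ h _ _ h' => Eqv.append h h'⟩

instance : Neg W := ⟨Quotient.map (fun a => a.map fun c => -c) fun _ _ h => Eqv.neg h⟩

theorem mk_nil : mk [] = 0 := rfl

theorem mk_append (a b : List Nz) : mk (a ++ b) = mk a + mk b := rfl

theorem mk_neg (a : List Nz) : mk (a.map fun c => -c) = -mk a := rfl

theorem neg_append_self (a : List Nz) : Eqv ((a.map fun c => -c) ++ a) [] := by
  induction a with
  | nil => exact Eqv.refl _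
  | cons c a ih =>
    have h1 : (((c :: a).map fun c => -c) ++ (c :: a)).Perm
        ([c, -c] ++ ((a.map fun c => -c) ++ a)) := by
      rw [List.map_cons, List.cons_append]
      refine (List.Perm.cons _ List.perm_middle).trans ?_
      exact List.Perm.swap _ _ _
    exact (eqv_perm h1).trans ((Eqv.append (eqv_hyp c) ih).trans (Eqv.refl _))

instance : AddCommGroup W where
  add_assoc x y z := by
    obtain ⟨a, rfl⟩ := exists_rep x
    obtain ⟨b, rfl⟩ := exists_rep y
    obtain ⟨c, rfl⟩ := exists_rep z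
    rw [← mk_append, ← mk_append, ← mk_append, ← mk_append, List.append_assoc]
  zero_add x := by
    obtain ⟨a, rfl⟩ := exists_rep x
    rw [← mk_nil, ← mk_append, List.nil_append]
  add_zero x := by
    obtain ⟨a, rfl⟩ := exists_rep x
    rw [← mk_nil, ← mk_append, List.append_nil]
  add_comm x y := by
    obtain ⟨a, rfl⟩ := exists_rep x
    obtain ⟨b, rfl⟩ := exists_rep y
    rw [← mk_append, ← mk_append, mk_eq]
    exact eqv_perm List.perm_append_comm
  neg_add_cancel x := by
    obtain ⟨a, rfl⟩ := exists_rep x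
    rw [← mk_neg, ← mk_append, ← mk_nil, mk_eq]
    exact neg_append_self a
  nsmul := nsmulRec
  zsmul := zsmulRec

/-- `X ⊥ w` is metabolic -/
def MetW (X : QS) (w : W) : Prop :=
  Quotient.lift (fun a : List Nz => Met (X.exts a))
    (fun _ _ h => propext ((show Eqv _ _ from h) X)) w

theorem metW_mk (X : QS) (a : List Nz) : MetW X (mk a) ↔ Met (X.exts a) := Iff.rfl

/-- the class of `<c>` -/
noncomputable def f (c : ℤ) : W := open Classical in if h : c ≠ 0 then mk [⟨c, h⟩] else 0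

theorem f_of_ne {c : ℤ} (h : c ≠ 0) : f c = mk [⟨c, h⟩] := dif_pos h

theorem f_neg (c : ℤ) (h : c ≠ 0) : f (-c) = -f c := by
  rw [f_of_ne h, f_of_ne (neg_ne_zero.2 h), ← mk_neg]
  rfl

theorem f_sq (c s : ℤ) (hc : c ≠ 0) (hs : s ≠ 0) : f (c * s ^ 2) = f c := by
  rw [f_of_ne hc, f_of_ne (mul_ne_zero hc (pow_ne_zero 2 hs)), mk_eq]
  intro X
  have h := (iso_sq X (c : ℚ) (s := (s : ℚ)) (by exact_mod_cast hs)).met_iff
  have e : ((c * s ^ 2 : ℤ) : ℚ) = (c : ℚ) * (s : ℚ) ^ 2 := by push_cast; rfl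
  change Met (X.ext ((c * s ^ 2 : ℤ) : ℚ)) ↔ Met (X.ext (c : ℚ))
  rw [e]
  exact h

theorem f_add (a b : ℤ) (ha : a ≠ 0) (hb : b ≠ 0) (hab : a + b ≠ 0) :
    f a + f b = f (a + b) + f (a * b * (a + b)) := by
  rw [f_of_ne ha, f_of_ne hb, f_of_ne hab, f_of_ne (mul_ne_zero (mul_ne_zero ha hb) hab),
    ← mk_append, ← mk_append, mk_eq]
  intro X
  have h := (iso_add X (a := (a : ℚ)) (b := (b : ℚ)) (by exact_mod_cast hab)).met_iff
  change Met ((X.ext (a : ℚ)).ext (b : ℚ)) ↔
    Met ((X.ext ((a + b : ℤ) : ℚ)).ext ((a * b * (a + b) : ℤ) : ℚ))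
  push_cast
  exact h.symm

theorem mk_eq_sum (a : List Nz) : mk a = (a.map fun c => f c.1).sum := by
  induction a with
  | nil => rfl
  | cons c a ih =>
    rw [List.map_cons, List.sum_cons, ← ih, f_of_ne c.2]
    rfl

/-- elements of the subgroup generated by `f c`, `c ∈ S`, are lists with entries in `S` -/
theorem exists_list {S : Set ℤ} (h0 : ∀ c ∈ S, c ≠ 0) (hn : ∀ c ∈ S, -c ∈ S) {w : W}
    (hw : w ∈ AddSubgroup.closure (f '' S)) : ∃ a : List Nz, (∀ c ∈ a, c.1 ∈ S) ∧ mk a = w := by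
  induction hw using AddSubgroup.closure_induction with
  | mem x hx =>
    obtain ⟨c, hc, rfl⟩ := hx
    refine ⟨[⟨c, h0 c hc⟩], ?_, (f_of_ne _).symm⟩
    intro d hd
    rw [List.mem_singleton] at hd
    rw [hd]; exact hc
  | zero => exact ⟨[], by simp, rfl⟩
  | add x y _ _ hx hy =>
    obtain ⟨a, ha, rfl⟩ := hx
    obtain ⟨b, hb, rfl⟩ := hy
    refine ⟨a ++ b, ?_, mk_append a b⟩
    intro c hc
    rcases List.mem_append.1 hc with h | h
    · exact ha c h
    · exact hb c h
  | neg x _ hx =>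
    obtain ⟨a, ha, rfl⟩ := hx
    refine ⟨a.map fun c => -c, ?_, mk_neg a⟩
    intro c hc
    obtain ⟨d, hd, rfl⟩ := List.mem_map.1 hc
    exact hn _ (ha d hd)

end W

end Vale.Agent.P290.H416.Uni
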